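import Vale.Agent.P091.Defs

/-!
# P091 module COT: cotangent sums

`N = 4 * Q`, `Q ≤ X < 3 * Q`, `x ∈ 2πX/N + [5π/4, 7π/4]/N`, atoms `2πY/N + δ Y`, `0 ≤ δ Y ≤ π/N`,
`u = x - (2πY/N + δ Y)`.  Facts: for `Y ≤ X`: `(π/(4N)) (X-Y+1) ≤ u ≤ 2π(X-Y+1)/N ≤ 3π/2`; for
`Y > X`: `(π/(4N)) (Y-X) ≤ -u ≤ 2π(Y-X)/N ≤ 3π/2`.  For `0 < z ≤ 3π/4`: `-1 ≤ cot z ≤ 1/z`, so
`|cot z| ≤ 1/z + 1`; for `0 < z ≤ π/4`: `cot z ≥ 1/z - 1`.
Main sum: the terms `Y ≤ X`, `X - Y + 1 = m ≤ Q` are `≥ N/(4m) - 1`; all the other terms are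
`≥ -1`.
-/

open Finset

namespace P091

private theorem cotA_lower {z : ℝ} (h0 : 0 < z) (h1 : z ≤ 3 * Real.pi / 4) : -1 ≤ Real.cot z := by
  have hs : 0 < Real.sin z := Real.sin_pos_of_pos_of_lt_pi h0 (by linarith [Real.pi_pos])
  rw [Real.cot_eq_cos_div_sin, le_div_iff₀ hs]
  have h2 : 0 ≤ Real.sin (z + Real.pi / 4) :=
    Real.sin_nonneg_of_nonneg_of_le_pi (by linarith [Real.pi_pos]) (by linarith)
  rw [Real.sin_add, Real.cos_pi_div_four, Real.sin_pi_div_four, ← add_mul] at h2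
  have h3 : 0 < Real.sqrt 2 / 2 := by positivity
  have h4 := nonneg_of_mul_nonneg_left h2 h3
  linarith

private theorem cotA_upper {z : ℝ} (h0 : 0 < z) (h1 : z ≤ 3 * Real.pi / 4) :
    Real.cot z ≤ 1 / z := by
  have hs : 0 < Real.sin z := Real.sin_pos_of_pos_of_lt_pi h0 (by linarith [Real.pi_pos])
  rw [Real.cot_eq_cos_div_sin, div_le_div_iff₀ hs h0, one_mul]
  rcases lt_or_ge z (Real.pi / 2) with h2 | h2
  · have h3 := Real.lt_tan h0 h2
    have hc : 0 < Real.cos z := Real.cos_pos_of_mem_Ioo ⟨by linarith, h2⟩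
    rw [Real.tan_eq_sin_div_cos, lt_div_iff₀ hc] at h3
    linarith
  · have hc : Real.cos z ≤ 0 := Real.cos_nonpos_of_pi_div_two_le_of_le h2 (by linarith)
    nlinarith

private theorem cotA_near {z : ℝ} (h0 : 0 < z) (h1 : z ≤ Real.pi / 4) :
    1 / z - 1 ≤ Real.cot z := by
  have hpi := Real.pi_lt_four
  have hz1 : z ≤ 1 := by linarith
  have hs : 0 < Real.sin z := Real.sin_pos_of_pos_of_lt_pi h0 (by linarith)
  rw [Real.cot_eq_cos_div_sin, le_div_iff₀ hs]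
  have h2 := Real.one_sub_sq_div_two_le_cos (x := z)
  have h3 := Real.sin_le h0.le
  have h4 : 0 ≤ 1 / z - 1 := by
    rw [sub_nonneg, le_div_iff₀ h0]
    linarith
  calc (1 / z - 1) * Real.sin z ≤ (1 / z - 1) * z := mul_le_mul_of_nonneg_left h3 h4
    _ = 1 - z := by field_simp
    _ ≤ Real.cos z := by nlinarith

/-- the position of `u`: with `m = dst X Y` the absolute value of `u` lies between `π m / (4 N)`
and `2 π m / N`, and its sign is `sgn X Y` -/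
private theorem cotA_u (Q : ℕ) (hQ : 0 < Q) (X : ℕ) (hX1 : Q ≤ X) (hX2 : X < 3 * Q) (x : ℝ)
    (hx1 : 2 * Real.pi * X / (4 * Q) + 5 * Real.pi / 4 / (4 * Q) ≤ x)
    (hx2 : x ≤ 2 * Real.pi * X / (4 * Q) + 7 * Real.pi / 4 / (4 * Q))
    (δ : ℝ) (hδ0 : 0 ≤ δ) (hδ1 : δ ≤ Real.pi / (4 * Q)) (Y : ℕ) (hY : Y < 4 * Q) :
    ∃ z : ℝ, (x - (2 * Real.pi * Y / (4 * Q) + δ)) / 2 = sgn X Y * z ∧
      Real.pi * (dst X Y : ℝ) / (8 * (4 * Q)) ≤ z ∧ z ≤ Real.pi * (dst X Y : ℝ) / (4 * Q) ∧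
      1 ≤ (dst X Y : ℝ) ∧ (dst X Y : ℝ) ≤ 3 * Q := by
  have hQR : (0 : ℝ) < Q := Nat.cast_pos.2 hQ
  have hN : (0 : ℝ) < 4 * Q := by positivity
  have hpi := Real.pi_pos
  have hX1R : (Q : ℝ) ≤ X := by exact_mod_cast hX1
  have hX2R : (X : ℝ) + 1 ≤ 3 * Q := by exact_mod_cast hX2
  have hYR : (Y : ℝ) + 1 ≤ 4 * Q := by exact_mod_cast hY
  -- multiply by `N`
  have a1 : 2 * Real.pi * X + 5 * Real.pi / 4 ≤ x * (4 * Q) := by
    rw [← add_div, div_le_iff₀ hN] at hx1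
    exact hx1
  have a2 : x * (4 * Q) ≤ 2 * Real.pi * X + 7 * Real.pi / 4 := by
    rw [← add_div, le_div_iff₀ hN] at hx2
    exact hx2
  have a3 : δ * (4 * Q) ≤ Real.pi := by
    rw [le_div_iff₀ hN] at hδ1
    exact hδ1
  have a4 : 0 ≤ δ * (4 * Q) := by positivity
  have a5 : (x - (2 * Real.pi * Y / (4 * Q) + δ)) * (4 * Q) =
      x * (4 * Q) - 2 * Real.pi * Y - δ * (4 * Q) := by
    field_simp
    ring
  rcases le_or_gt Y X with h | h
  · have hd : (dst X Y : ℝ) = X - Y + 1 := by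
      unfold dst
      rw [if_pos h]
      push_cast [Nat.cast_sub h]
      ring
    have hs : sgn X Y = 1 := by
      unfold sgn
      rw [if_neg (not_lt.2 h)]
    have hR : (Y : ℝ) ≤ X := by exact_mod_cast h
    refine ⟨(x - (2 * Real.pi * Y / (4 * Q) + δ)) / 2, by rw [hs, one_mul], ?_, ?_, ?_, ?_⟩
    · rw [div_le_iff₀ (by positivity), hd]
      nlinarith [mul_nonneg hpi.le (sub_nonneg.2 hR)]
    · rw [le_div_iff₀ hN, hd]
      nlinarith
    · rw [hd]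
      linarith
    · rw [hd]
      have : (0 : ℝ) ≤ Y := Nat.cast_nonneg _
      linarith
  · have hd : (dst X Y : ℝ) = Y - X := by
      unfold dst
      rw [if_neg (not_le.2 h)]
      push_cast [Nat.cast_sub h.le]
      ring
    have hs : sgn X Y = -1 := by
      unfold sgn
      rw [if_pos h]
    have hR : (X : ℝ) + 1 ≤ Y := by exact_mod_cast h
    refine ⟨-((x - (2 * Real.pi * Y / (4 * Q) + δ)) / 2), by rw [hs]; ring, ?_, ?_, ?_, ?_⟩
    · rw [div_le_iff₀ (by positivity), hd]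
      nlinarith [mul_nonneg hpi.le (sub_nonneg.2 hR)]
    · rw [le_div_iff₀ hN, hd]
      nlinarith
    · rw [hd]
      linarith
    · rw [hd]
      linarith

private theorem cotA_z {Q : ℕ} (hQ : 0 < Q) {m z : ℝ} (hm1 : 1 ≤ m) (hm2 : m ≤ 3 * Q)
    (h1 : Real.pi * m / (8 * (4 * Q)) ≤ z) (h2 : z ≤ Real.pi * m / (4 * Q)) :
    0 < z ∧ z ≤ 3 * Real.pi / 4 := by
  have hQR : (0 : ℝ) < Q := Nat.cast_pos.2 hQ
  have hpi := Real.pi_pos
  refine ⟨lt_of_lt_of_le (by positivity) h1, h2.trans ?_⟩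
  rw [div_le_div_iff₀ (by positivity) (by norm_num)]
  nlinarith

private theorem cotA_sgn (X Y : ℕ) (z : ℝ) :
    sgn X Y * Real.cot (sgn X Y * z) = Real.cot z := by
  unfold sgn
  split_ifs
  · rw [neg_one_mul, neg_one_mul, Real.cot_eq_cos_div_sin, Real.cot_eq_cos_div_sin, Real.cos_neg,
      Real.sin_neg, div_neg, neg_neg]
  · rw [one_mul, one_mul]

private theorem cotA_abs (X Y : ℕ) (z : ℝ) : |Real.cot (sgn X Y * z)| = |Real.cot z| := by
  rw [← cotA_sgn X Y z, abs_mul]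
  have h : |sgn X Y| = 1 := by
    unfold sgn
    split_ifs <;> simp
  rw [h, one_mul]

theorem cot_sin_ne (Q : ℕ) (hQ : 0 < Q) (X : ℕ) (hX1 : Q ≤ X) (hX2 : X < 3 * Q) (x : ℝ)
    (hx1 : 2 * Real.pi * X / (4 * Q) + 5 * Real.pi / 4 / (4 * Q) ≤ x)
    (hx2 : x ≤ 2 * Real.pi * X / (4 * Q) + 7 * Real.pi / 4 / (4 * Q))
    (δ : ℝ) (hδ0 : 0 ≤ δ) (hδ1 : δ ≤ Real.pi / (4 * Q)) (Y : ℕ) (hY : Y < 4 * Q) :
    Real.sin ((x - (2 * Real.pi * Y / (4 * Q) + δ)) / 2) ≠ 0 := by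
  obtain ⟨z, e, h1, h2, h3, h4⟩ := cotA_u Q hQ X hX1 hX2 x hx1 hx2 δ hδ0 hδ1 Y hY
  obtain ⟨h5, h6⟩ := cotA_z hQ h3 h4 h1 h2
  have hs : 0 < Real.sin z := Real.sin_pos_of_pos_of_lt_pi h5 (by linarith [Real.pi_pos])
  rw [e]
  unfold sgn
  split_ifs
  · rw [neg_one_mul, Real.sin_neg]
    exact neg_ne_zero.2 hs.ne'
  · rw [one_mul]
    exact hs.ne'

theorem cot_abs_le (Q : ℕ) (hQ : 0 < Q) (X : ℕ) (hX1 : Q ≤ X) (hX2 : X < 3 * Q) (x : ℝ)
    (hx1 : 2 * Real.pi * X / (4 * Q) + 5 * Real.pi / 4 / (4 * Q) ≤ x)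
    (hx2 : x ≤ 2 * Real.pi * X / (4 * Q) + 7 * Real.pi / 4 / (4 * Q))
    (δ : ℝ) (hδ0 : 0 ≤ δ) (hδ1 : δ ≤ Real.pi / (4 * Q)) (Y : ℕ) (hY : Y < 4 * Q) :
    |Real.cot ((x - (2 * Real.pi * Y / (4 * Q) + δ)) / 2)| ≤ (4 * Q) * (4 / (dst X Y : ℝ)) := by
  obtain ⟨z, e, h1, h2, h3, h4⟩ := cotA_u Q hQ X hX1 hX2 x hx1 hx2 δ hδ0 hδ1 Y hY
  obtain ⟨h5, h6⟩ := cotA_z hQ h3 h4 h1 h2
  have hQR : (0 : ℝ) < Q := Nat.cast_pos.2 hQ
  have hm : (0 : ℝ) < dst X Y := by linarith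
  rw [e, cotA_abs, abs_le]
  constructor
  · have h7 := cotA_lower h5 h6
    have h8 : 1 ≤ (4 * Q) * (4 / (dst X Y : ℝ)) := by
      rw [← mul_div_assoc, le_div_iff₀ hm]
      linarith
    linarith
  · refine (cotA_upper h5 h6).trans ?_
    rw [← mul_div_assoc, div_le_div_iff₀ h5 hm]
    have h9 : Real.pi * (dst X Y : ℝ) ≤ z * (8 * (4 * Q)) := (div_le_iff₀ (by positivity)).1 h1
    have h10 := Real.pi_gt_three
    nlinarith [mul_nonneg (sub_nonneg.2 h10.le) hm.le, mul_pos h5 hQR]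

theorem cot_sum_ge (Q : ℕ) (hQ : 0 < Q) (X : ℕ) (hX1 : Q ≤ X) (hX2 : X < 3 * Q) (x : ℝ)
    (hx1 : 2 * Real.pi * X / (4 * Q) + 5 * Real.pi / 4 / (4 * Q) ≤ x)
    (hx2 : x ≤ 2 * Real.pi * X / (4 * Q) + 7 * Real.pi / 4 / (4 * Q))
    (δ : ℕ → ℝ) (hδ0 : ∀ Y, 0 ≤ δ Y) (hδ1 : ∀ Y, δ Y ≤ Real.pi / (4 * Q)) :
    (4 * Q) * (har Q / 4 - 1) ≤
      ∑ Y ∈ range (4 * Q),
        sgn X Y * Real.cot ((x - (2 * Real.pi * Y / (4 * Q) + δ Y)) / 2) := by
  have hQR : (0 : ℝ) < Q := Nat.cast_pos.2 hQ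
  -- the lower bound of the terms
  have hg : ∀ Y ∈ range (4 * Q),
      (if Y ≤ X ∧ X - Y + 1 ≤ Q then (Q : ℝ) / ((X - Y : ℕ) + 1 : ℝ) else 0) - 1 ≤
        sgn X Y * Real.cot ((x - (2 * Real.pi * Y / (4 * Q) + δ Y)) / 2) := by
    intro Y hY
    obtain ⟨z, e, h1, h2, h3, h4⟩ :=
      cotA_u Q hQ X hX1 hX2 x hx1 hx2 (δ Y) (hδ0 Y) (hδ1 Y) Y (mem_range.1 hY)
    obtain ⟨h5, h6⟩ := cotA_z hQ h3 h4 h1 h2
    rw [e, cotA_sgn]
    split_ifs with h
    · obtain ⟨h7, h8⟩ := h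
      have hd : dst X Y = X - Y + 1 := if_pos h7
      have hdR : (dst X Y : ℝ) = ((X - Y : ℕ) + 1 : ℝ) := by
        rw [hd]
        push_cast
        ring
      have h9 : (dst X Y : ℝ) ≤ Q := by
        rw [hd]
        exact_mod_cast h8
      have h10 : z ≤ Real.pi / 4 := by
        refine h2.trans ?_
        rw [div_le_div_iff₀ (by positivity) (by norm_num)]
        nlinarith [Real.pi_pos]
      refine le_trans ?_ (cotA_near h5 h10)
      have h11 : (Q : ℝ) / ((X - Y : ℕ) + 1 : ℝ) ≤ 1 / z := by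
        rw [← hdR, div_le_div_iff₀ (by linarith) h5]
        have h12 : z * (4 * Q) ≤ Real.pi * (dst X Y : ℝ) := (le_div_iff₀ (by positivity)).1 h2
        have h13 := Real.pi_lt_four
        nlinarith
      linarith
    · have h7 := cotA_lower h5 h6
      linarith
  refine le_trans ?_ (sum_le_sum hg)
  rw [sum_sub_distrib, sum_const, card_range, nsmul_eq_mul]
  have hmain : (Q : ℝ) * har Q ≤ ∑ Y ∈ range (4 * Q),
      (if Y ≤ X ∧ X - Y + 1 ≤ Q then (Q : ℝ) / ((X - Y : ℕ) + 1 : ℝ) else 0) := by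
    have hinj : Set.InjOn (fun m => X - m) (range Q : Finset ℕ) := by
      intro m hm m' hm' h
      have h1 := mem_range.1 (mem_coe.1 hm)
      have h2 := mem_range.1 (mem_coe.1 hm')
      simp only at h
      omega
    have h1 : ∑ Y ∈ (range Q).image (fun m => X - m),
        (if Y ≤ X ∧ X - Y + 1 ≤ Q then (Q : ℝ) / ((X - Y : ℕ) + 1 : ℝ) else 0) =
        (Q : ℝ) * har Q := by
      rw [sum_image hinj, har, mul_sum]
      refine sum_congr rfl fun m hm => ?_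
      have h2 := mem_range.1 hm
      have h3 : X - (X - m) = m := by omega
      rw [h3, if_pos ⟨Nat.sub_le _ _, by omega⟩, mul_one_div]
    rw [← h1]
    refine sum_le_sum_of_subset_of_nonneg ?_ ?_
    · intro Y hY
      obtain ⟨m, hm, rfl⟩ := mem_image.1 hY
      have h2 := mem_range.1 hm
      rw [mem_range]
      omega
    · intro Y _ _
      split_ifs
      · positivity
      · exact le_rfl
  push_cast
  linarith

private theorem cotA_har_mono {a b : ℕ} (h : a ≤ b) : har a ≤ har b := by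
  unfold har
  refine sum_le_sum_of_subset_of_nonneg (range_mono h) fun i _ _ => ?_
  positivity

private theorem cotA_har4 (Q : ℕ) (hQ : 0 < Q) : har (4 * Q) ≤ har Q + 3 := by
  have hQR : (0 : ℝ) < Q := Nat.cast_pos.2 hQ
  have e : 4 * Q = Q + 3 * Q := by ring
  unfold har
  rw [e, sum_range_add]
  refine add_le_add le_rfl ?_
  have h1 : ∀ i ∈ range (3 * Q), 1 / (((Q + i : ℕ) : ℝ) + 1) ≤ 1 / (Q : ℝ) := by
    intro i _
    refine one_div_le_one_div_of_le hQR ?_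
    push_cast
    have : (0 : ℝ) ≤ i := Nat.cast_nonneg _
    linarith
  refine (sum_le_sum h1).trans (le_of_eq ?_)
  rw [sum_const, card_range, nsmul_eq_mul]
  push_cast
  field_simp

/-- Sum of the reciprocal distances. -/
theorem dst_sum_le (Q : ℕ) (hQ : 0 < Q) (X : ℕ) (hX : X < 4 * Q) :
    ∑ Y ∈ range (4 * Q), 4 / (dst X Y : ℝ) ≤ 8 * (har Q + 3) := by
  have e : 4 * Q = (X + 1) + (4 * Q - (X + 1)) := by omega
  have h1 : ∑ Y ∈ range (4 * Q), 4 / (dst X Y : ℝ) =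
      4 * har (X + 1) + 4 * har (4 * Q - (X + 1)) := by
    rw [e, sum_range_add, ← e]
    congr 1
    · unfold har
      rw [← sum_range_reflect, mul_sum]
      refine sum_congr rfl fun j hj => ?_
      have h2 := mem_range.1 hj
      have h3 : dst X (X + 1 - 1 - j) = j + 1 := by
        unfold dst
        rw [if_pos (by omega)]
        omega
      rw [h3, mul_one_div]
      push_cast
      ring
    · unfold har
      rw [mul_sum]
      refine sum_congr rfl fun j hj => ?_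
      have h3 : dst X (X + 1 + j) = j + 1 := by
        unfold dst
        rw [if_neg (by omega)]
        omega
      rw [h3, mul_one_div]
      push_cast
      ring
  rw [h1]
  have h2 := cotA_har_mono (a := X + 1) (b := 4 * Q) (by omega)
  have h3 := cotA_har_mono (a := 4 * Q - (X + 1)) (b := 4 * Q) (by omega)
  have h4 := cotA_har4 Q hQ
  linarith

theorem har_ge (L : ℕ) : (L : ℝ) * Real.log 2 ≤ har (2 ^ L) := by
  have h1 := log_add_one_le_harmonic (2 ^ L)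
  have h2 : ((harmonic (2 ^ L) : ℚ) : ℝ) = har (2 ^ L) := by
    unfold harmonic har
    push_cast
    refine sum_congr rfl fun i _ => ?_
    rw [one_div]
  rw [h2] at h1
  refine le_trans ?_ h1
  rw [← Real.log_pow]
  refine Real.log_le_log (by positivity) ?_
  push_cast
  linarith

end P091
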