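import Vale.Agent.P091.Defs

/-!
# P091 module DIR: closed form of the Dirichlet kernel

Induction on `n`: both sides times `sin (u/2)`; `2 cos ((n+1) u) sin (u/2) =
sin ((n + 3/2) u) - sin ((n + 1/2) u)`.
-/

open Finset

namespace P091

private theorem dir_Icc (n : ℕ) : Icc (-((n + 1 : ℕ) : ℤ)) ((n + 1 : ℕ) : ℤ) =
    insert (-((n + 1 : ℕ) : ℤ)) (insert ((n + 1 : ℕ) : ℤ) (Icc (-(n : ℤ)) n)) := by
  ext j
  simp only [mem_Icc, mem_insert]
  push_cast
  omega

theorem dirichlet (n : ℕ) (u : ℝ) (hu : Real.sin (u / 2) ≠ 0) :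
    ∑ j ∈ Icc (-(n : ℤ)) n, Complex.exp (Complex.I * j * u) =
      ((Real.sin (n * u) * Real.cot (u / 2) + Real.cos (n * u) : ℝ) : ℂ) := by
  induction n with
  | zero => simp
  | succ n ih =>
    have h1 : (-((n + 1 : ℕ) : ℤ)) ∉ insert ((n + 1 : ℕ) : ℤ) (Icc (-(n : ℤ)) n) := by
      simp only [mem_Icc, mem_insert]
      push_cast
      omega
    have h2 : (((n + 1 : ℕ) : ℤ)) ∉ (Icc (-(n : ℤ)) n) := by
      simp only [mem_Icc]
      push_cast
      omega
    rw [dir_Icc, sum_insert h1, sum_insert h2, ih]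
    have h3 : Complex.exp (Complex.I * ((-((n + 1 : ℕ) : ℤ) : ℤ) : ℂ) * u) +
        Complex.exp (Complex.I * (((n + 1 : ℕ) : ℤ) : ℂ) * u) =
        ((2 * Real.cos ((n + 1 : ℕ) * u) : ℝ) : ℂ) := by
      push_cast
      rw [Complex.cos]
      have e2 : Complex.I * ((n : ℂ) + 1) * u = ((n : ℂ) + 1) * u * Complex.I := by ring
      have e3 : Complex.I * (-((n : ℂ) + 1)) * u = -(((n : ℂ) + 1) * u) * Complex.I := by ring
      rw [e3, e2]
      ring
    rw [← add_assoc, h3, ← Complex.ofReal_add]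
    congr 1
    rw [Real.cot_eq_cos_div_sin]
    have h4 : Real.sin (((n + 1 : ℕ) : ℝ) * u + u / 2) - Real.sin ((n : ℝ) * u + u / 2) =
        2 * Real.cos (((n + 1 : ℕ) : ℝ) * u) * Real.sin (u / 2) := by
      have e4 : (n : ℝ) * u + u / 2 = ((n + 1 : ℕ) : ℝ) * u - u / 2 := by
        push_cast
        ring
      rw [e4, Real.sin_add, Real.sin_sub]
      ring
    rw [Real.sin_add, Real.sin_add] at h4
    generalize Real.sin ((n : ℝ) * u) = a1 at h4 ⊢
    generalize Real.cos ((n : ℝ) * u) = a2 at h4 ⊢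
    generalize Real.sin (((n + 1 : ℕ) : ℝ) * u) = a3 at h4 ⊢
    generalize Real.cos (((n + 1 : ℕ) : ℝ) * u) = a4 at h4 ⊢
    field_simp
    linarith

end P091
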