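import Vale.Agent.P091.Phase
import Vale.Agent.P091.Cot
import Vale.Agent.P091.Dir

/-!
# P091 module CELL: lower bound for the Dirichlet sum on one cell

`ℓ = L + 2`, `N = 2 ^ ℓ = 4 Q`, `Q = 2 ^ L`.  For `x` in the cell write `x = (2πX + s)/N`,
`s ∈ [5π/4, 7π/4]`.  `sin (N (m+q) x) = sin ((m+q) s)` and
`|sin s| ≤ |sin ((m+1) s)| + |sin (m s)|`, `|sin s| ≥ 2/3`, so for `q = 0` or `q = 1` we have
`|sin (n x)| ≥ 1/3`, `n = N (mlt X + q)`.  Then by `dirichlet`, `phase`, `cot_abs_le`,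
`cot_sum_ge` (with `δ = del`, `del ≤ π / (2^13 N) ≤ π / N`) the sum
`(1/N) ∑_Y (sin (n u_Y) cot (u_Y / 2) + cos (n u_Y))` is bounded below as stated.
-/

open Finset

namespace P091

private theorem cell_abs_sin (s : ℝ) (h1 : 5 * Real.pi / 4 ≤ s) (h2 : s ≤ 7 * Real.pi / 4) :
    2 / 3 ≤ |Real.sin s| := by
  have hpi := Real.pi_pos
  -- `-sin s = sin (s - π)` and `s - π ∈ [π/4, 3π/4]`
  have e : Real.sin s = - Real.cos (s - 3 * Real.pi / 2) := by
    have : s = (s - 3 * Real.pi / 2) + Real.pi / 2 + Real.pi := by ring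
    conv_lhs => rw [this]
    rw [Real.sin_add_pi, Real.sin_add_pi_div_two]
  have habs : |s - 3 * Real.pi / 2| ≤ Real.pi / 4 := by
    rw [abs_le]; constructor <;> linarith
  have hc : Real.cos (Real.pi / 4) ≤ Real.cos (s - 3 * Real.pi / 2) := by
    rw [← Real.cos_abs (s - 3 * Real.pi / 2)]
    apply Real.cos_le_cos_of_nonneg_of_le_pi (abs_nonneg _) (by linarith) habs
  have h4 : (2 / 3 : ℝ) ≤ Real.cos (Real.pi / 4) := by
    rw [Real.cos_pi_div_four]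
    have : (4 / 3 : ℝ) ≤ Real.sqrt 2 := by
      apply Real.le_sqrt_of_sq_le; norm_num
    linarith
  rw [e, abs_neg, abs_of_nonneg (by linarith)]
  linarith

private theorem cell_choose (m : ℕ) (s : ℝ) (h : 2 / 3 ≤ |Real.sin s|) :
    ∃ q : ℕ, q ≤ 1 ∧ 1 / 3 ≤ |Real.sin (((m + q : ℕ) : ℝ) * s)| := by
  by_contra hcon
  push Not at hcon
  have h0 := hcon 0 (by norm_num)
  have h1 := hcon 1 (by norm_num)
  have e : Real.sin s = Real.sin (((m + 1 : ℕ) : ℝ) * s) * Real.cos (((m + 0 : ℕ) : ℝ) * s)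
      - Real.cos (((m + 1 : ℕ) : ℝ) * s) * Real.sin (((m + 0 : ℕ) : ℝ) * s) := by
    rw [← Real.sin_sub]; congr 1; push_cast; ring
  have hb : |Real.sin s| ≤ |Real.sin (((m + 1 : ℕ) : ℝ) * s)| + |Real.sin (((m + 0 : ℕ) : ℝ) * s)| := by
    rw [e]
    refine (abs_sub _ _).trans ?_
    rw [abs_mul, abs_mul]
    have c1 := Real.abs_cos_le_one (((m + 0 : ℕ) : ℝ) * s)
    have c2 := Real.abs_cos_le_one (((m + 1 : ℕ) : ℝ) * s)
    have a1 := abs_nonneg (Real.sin (((m + 1 : ℕ) : ℝ) * s))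
    have a2 := abs_nonneg (Real.sin (((m + 0 : ℕ) : ℝ) * s))
    nlinarith
  linarith

theorem cell (L R : ℕ) (h : ℕ → ℕ → ℕ) (hR : ∀ i p, h i p < R) (X : ℕ)
    (hX1 : 2 ^ L ≤ X) (hX2 : X < 3 * 2 ^ L) (x : ℝ)
    (hx1 : 2 * Real.pi * X / 2 ^ (L + 2) + 5 * Real.pi / 4 / 2 ^ (L + 2) ≤ x)
    (hx2 : x ≤ 2 * Real.pi * X / 2 ^ (L + 2) + 7 * Real.pi / 4 / 2 ^ (L + 2)) :
    ∃ q : ℕ, q ≤ 1 ∧
      (1 / 3 : ℝ) * (har (2 ^ L) / 4 - 1)
        - ∑ Y ∈ range (2 ^ (L + 2)),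
            (Real.pi * kap (L + 2) R h X Y + Real.pi / 2 ^ 13) * (4 / (dst X Y : ℝ)) - 1 ≤
      ‖(1 / ((2 ^ (L + 2) : ℕ) : ℂ)) * ∑ Y ∈ range (2 ^ (L + 2)),
        ∑ j ∈ Icc (-((2 ^ (L + 2) * (mlt (L + 2) R h X + q) : ℕ) : ℤ))
            ((2 ^ (L + 2) * (mlt (L + 2) R h X + q) : ℕ) : ℤ),
          Complex.exp (Complex.I * j * ((x - atom (L + 2) R h Y : ℝ) : ℂ))‖ := by
  have hpi := Real.pi_pos
  have hNpos : (0 : ℝ) < 2 ^ (L + 2) := by positivity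
  have hN4 : (2 : ℝ) ^ (L + 2) = 4 * ((2 ^ L : ℕ) : ℝ) := by push_cast; ring
  have hN4n : 2 ^ (L + 2) = 4 * 2 ^ L := by ring
  have hQ : 0 < 2 ^ L := by positivity
  set m := mlt (L + 2) R h X with hm
  -- the parameter s
  obtain ⟨q, hq, hsin⟩ := cell_choose m ((2 : ℝ) ^ (L + 2) * x - 2 * Real.pi * X)
    (cell_abs_sin _ (by
      have := mul_le_mul_of_nonneg_left hx1 hNpos.le
      have e : (2 : ℝ) ^ (L + 2) * (2 * Real.pi * X / 2 ^ (L + 2) + 5 * Real.pi / 4 / 2 ^ (L + 2))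
        = 2 * Real.pi * X + 5 * Real.pi / 4 := by field_simp
      linarith) (by
      have := mul_le_mul_of_nonneg_left hx2 hNpos.le
      have e : (2 : ℝ) ^ (L + 2) * (2 * Real.pi * X / 2 ^ (L + 2) + 7 * Real.pi / 4 / 2 ^ (L + 2))
        = 2 * Real.pi * X + 7 * Real.pi / 4 := by field_simp
      linarith))
  refine ⟨q, hq, ?_⟩
  set n : ℕ := 2 ^ (L + 2) * (m + q) with hn
  have hsinx : 1 / 3 ≤ |Real.sin ((n : ℝ) * x)| := by
    have e : (n : ℝ) * x = ((m + q : ℕ) : ℝ) * ((2 : ℝ) ^ (L + 2) * x - 2 * Real.pi * X)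
        + ((((m + q) * X : ℕ) : ℤ) : ℝ) * (2 * Real.pi) := by
      rw [hn]; push_cast; ring
    rw [e, Real.sin_add_int_mul_two_pi]
    exact hsin
  have hXN : X < 2 ^ (L + 2) := by rw [hN4n]; omega
  -- hypotheses for the cot lemmas
  have hx1' : 2 * Real.pi * X / (4 * ((2 ^ L : ℕ) : ℝ)) + 5 * Real.pi / 4 / (4 * ((2 ^ L : ℕ) : ℝ)) ≤ x := by
    rw [← hN4]; exact hx1
  have hx2' : x ≤ 2 * Real.pi * X / (4 * ((2 ^ L : ℕ) : ℝ)) + 7 * Real.pi / 4 / (4 * ((2 ^ L : ℕ) : ℝ)) := by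
    rw [← hN4]; exact hx2
  have hδ0 : ∀ Y, 0 ≤ del (L + 2) R h Y := fun Y => del_nonneg _ _ _ _
  have hδ1 : ∀ Y, del (L + 2) R h Y ≤ Real.pi / (4 * ((2 ^ L : ℕ) : ℝ)) := by
    intro Y
    refine (del_le _ _ _ hR Y).trans ?_
    rw [← hN4]
    apply div_le_div_of_nonneg_left hpi.le hNpos
    nlinarith
  have hatom : ∀ Y : ℕ, atom (L + 2) R h Y
      = 2 * Real.pi * Y / (4 * ((2 ^ L : ℕ) : ℝ)) + del (L + 2) R h Y := by
    intro Y; rw [atom, ← hN4]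
  -- rewrite the complex sum
  have hsum : ∑ Y ∈ range (2 ^ (L + 2)),
        ∑ j ∈ Icc (-((n : ℕ) : ℤ)) ((n : ℕ) : ℤ),
          Complex.exp (Complex.I * j * ((x - atom (L + 2) R h Y : ℝ) : ℂ))
      = ((∑ Y ∈ range (2 ^ (L + 2)), (Real.sin (n * (x - atom (L + 2) R h Y))
          * Real.cot ((x - atom (L + 2) R h Y) / 2)
          + Real.cos (n * (x - atom (L + 2) R h Y))) : ℝ) : ℂ) := by
    rw [Complex.ofReal_sum]
    apply Finset.sum_congr rfl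
    intro Y hY
    rw [Finset.mem_range] at hY
    apply dirichlet
    rw [hatom Y]
    exact cot_sin_ne (2 ^ L) hQ X hX1 hX2 x hx1' hx2' _ (hδ0 Y) (hδ1 Y) Y (by rw [← hN4n]; exact hY)
  rw [hsum]
  have hnorm : ‖(1 / ((2 ^ (L + 2) : ℕ) : ℂ)) * ((∑ Y ∈ range (2 ^ (L + 2)),
          (Real.sin (n * (x - atom (L + 2) R h Y))
          * Real.cot ((x - atom (L + 2) R h Y) / 2)
          + Real.cos (n * (x - atom (L + 2) R h Y))) : ℝ) : ℂ)‖
      = (1 / (2 : ℝ) ^ (L + 2)) * |∑ Y ∈ range (2 ^ (L + 2)),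
          (Real.sin (n * (x - atom (L + 2) R h Y))
          * Real.cot ((x - atom (L + 2) R h Y) / 2)
          + Real.cos (n * (x - atom (L + 2) R h Y)))| := by
    rw [norm_mul, Complex.norm_real, Real.norm_eq_abs]
    congr 1
    rw [norm_div, norm_one]
    congr 1
    rw [Complex.norm_natCast]; push_cast; rfl
  rw [hnorm]
  -- decomposition
  set c : ℕ → ℝ := fun Y => Real.cot ((x - atom (L + 2) R h Y) / 2) with hc
  set e : ℕ → ℝ := fun Y => Real.sin (n * (x - atom (L + 2) R h Y))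
    - sgn X Y * Real.sin (n * x) with he
  have hdec : ∑ Y ∈ range (2 ^ (L + 2)), (Real.sin (n * (x - atom (L + 2) R h Y))
          * Real.cot ((x - atom (L + 2) R h Y) / 2)
          + Real.cos (n * (x - atom (L + 2) R h Y)))
      = Real.sin (n * x) * (∑ Y ∈ range (2 ^ (L + 2)), sgn X Y * c Y)
        + (∑ Y ∈ range (2 ^ (L + 2)), e Y * c Y)
        + ∑ Y ∈ range (2 ^ (L + 2)), Real.cos (n * (x - atom (L + 2) R h Y)) := by
    rw [Finset.mul_sum, ← Finset.sum_add_distrib, ← Finset.sum_add_distrib]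
    apply Finset.sum_congr rfl
    intro Y _
    simp only [hc, he]
    ring
  have hS : (2 : ℝ) ^ (L + 2) * (har (2 ^ L) / 4 - 1) ≤ ∑ Y ∈ range (2 ^ (L + 2)), sgn X Y * c Y := by
    have := cot_sum_ge (2 ^ L) hQ X hX1 hX2 x hx1' hx2' (fun Y => del (L + 2) R h Y) hδ0 hδ1
    rw [← hN4, ← hN4n] at this
    refine this.trans (le_of_eq ?_)
    apply Finset.sum_congr rfl
    intro Y _
    simp only [hc]
    rw [atom]
  have hE : |∑ Y ∈ range (2 ^ (L + 2)), e Y * c Y| ≤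
      2 ^ (L + 2) * ∑ Y ∈ range (2 ^ (L + 2)),
            (Real.pi * kap (L + 2) R h X Y + Real.pi / 2 ^ 13) * (4 / (dst X Y : ℝ)) := by
    refine (Finset.abs_sum_le_sum_abs _ _).trans ?_
    rw [Finset.mul_sum]
    apply Finset.sum_le_sum
    intro Y hY
    rw [Finset.mem_range] at hY
    rw [abs_mul]
    have h1 : |e Y| ≤ Real.pi * kap (L + 2) R h X Y + Real.pi / 2 ^ 13 :=
      phase (L + 2) R h hR X Y hXN hY q hq x
    have h2 : |c Y| ≤ 2 ^ (L + 2) * (4 / (dst X Y : ℝ)) := by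
      have := cot_abs_le (2 ^ L) hQ X hX1 hX2 x hx1' hx2' _ (hδ0 Y) (hδ1 Y) Y
        (by rw [← hN4n]; exact hY)
      rw [← hatom Y, ← hN4] at this
      exact this
    calc |e Y| * |c Y| ≤ (Real.pi * kap (L + 2) R h X Y + Real.pi / 2 ^ 13)
          * (2 ^ (L + 2) * (4 / (dst X Y : ℝ))) :=
          mul_le_mul h1 h2 (abs_nonneg _) ((abs_nonneg _).trans h1)
      _ = _ := by ring
  have hC : |∑ Y ∈ range (2 ^ (L + 2)), Real.cos (n * (x - atom (L + 2) R h Y))| ≤ 2 ^ (L + 2) := by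
    refine (Finset.abs_sum_le_sum_abs _ _).trans ?_
    refine (Finset.sum_le_sum (fun Y _ => Real.abs_cos_le_one _)).trans ?_
    rw [Finset.sum_const, Finset.card_range, nsmul_eq_mul, mul_one]
    push_cast
    exact le_refl _
  set S := ∑ Y ∈ range (2 ^ (L + 2)), sgn X Y * c Y with hSdef
  set E := ∑ Y ∈ range (2 ^ (L + 2)), e Y * c Y with hEdef
  set C := ∑ Y ∈ range (2 ^ (L + 2)), Real.cos (n * (x - atom (L + 2) R h Y)) with hCdef
  set K := ∑ Y ∈ range (2 ^ (L + 2)),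
            (Real.pi * kap (L + 2) R h X Y + Real.pi / 2 ^ 13) * (4 / (dst X Y : ℝ)) with hKdef
  rw [hdec]
  have hmain : (1 / 3 : ℝ) * (2 ^ (L + 2) * (har (2 ^ L) / 4 - 1)) ≤ |Real.sin (n * x) * S| := by
    rw [abs_mul]
    by_cases hneg : 2 ^ (L + 2) * (har (2 ^ L) / 4 - 1) ≤ 0
    · have : 0 ≤ |Real.sin (n * x)| * |S| := by positivity
      linarith
    · push Not at hneg
      have hS' : 2 ^ (L + 2) * (har (2 ^ L) / 4 - 1) ≤ |S| := hS.trans (le_abs_self _)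
      exact mul_le_mul hsinx hS' hneg.le (abs_nonneg _)
  have htri : |Real.sin (n * x) * S| - |E| - |C| ≤ |Real.sin (n * x) * S + E + C| := by
    have h1 := abs_sub_abs_le_abs_sub (Real.sin (n * x) * S) (-(E + C))
    have h2 : |(-(E + C))| ≤ |E| + |C| := by rw [abs_neg]; exact abs_add_le _ _
    have h3 : Real.sin (n * x) * S - -(E + C) = Real.sin (n * x) * S + E + C := by ring
    rw [h3] at h1
    linarith
  have hfin : (2 : ℝ) ^ (L + 2) * ((1 / 3 : ℝ) * (har (2 ^ L) / 4 - 1) - K - 1)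
      ≤ |Real.sin (n * x) * S + E + C| := by
    nlinarith
  have e2 : (1 / (2 : ℝ) ^ (L + 2)) * |Real.sin (n * x) * S + E + C|
      = |Real.sin (n * x) * S + E + C| / 2 ^ (L + 2) := by ring
  rw [e2, le_div_iff₀ hNpos]
  linarith

end P091
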