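import Mathlib

/-!
# P091: definitions for the `o(u √log u)` divergence theorem

`ℓ` = number of bits, `N = 2 ^ ℓ` atoms, a hash `h : ℕ → ℕ → ℕ` with values `< R`.
Bit position `i` of `X` together with the bits of `X` above `i` determine an index
`idx R h i X = 14 + R * i + h i (X / 2 ^ (i + 1))`.
-/

open Finset

namespace P091

/-- Frequency index attached to bit position `i` and the bits of `X` above `i`. -/
def idx (R : ℕ) (h : ℕ → ℕ → ℕ) (i X : ℕ) : ℕ := 14 + R * i + h i (X / 2 ^ (i + 1))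

/-- Weight of a pair of indices. -/
noncomputable def wgt (k l : ℕ) : ℝ := if k ≤ l then (1 / 2 : ℝ) ^ (l - k) else 0

/-- The error functional. -/
noncomputable def kap (ℓ R : ℕ) (h : ℕ → ℕ → ℕ) (X Y : ℕ) : ℝ :=
  ∑ i ∈ range ℓ, ∑ j ∈ range ℓ,
    if X.testBit i = false ∧ Y.testBit j = true ∧ ¬ (i = j ∧ X / 2 ^ (i + 1) = Y / 2 ^ (j + 1))
      then wgt (idx R h i X) (idx R h j Y) else 0

/-- The displacement of the atom `Y`. -/
noncomputable def del (ℓ R : ℕ) (h : ℕ → ℕ → ℕ) (Y : ℕ) : ℝ :=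
  ∑ j ∈ range ℓ, if Y.testBit j = true then Real.pi / ((2 : ℝ) ^ ℓ * 2 ^ idx R h j Y) else 0

/-- The multiplier of the cell `X`; the frequency used is `2 ^ ℓ * (mlt ℓ R h X + q)`. -/
def mlt (ℓ R : ℕ) (h : ℕ → ℕ → ℕ) (X : ℕ) : ℕ :=
  ∑ i ∈ range ℓ, if X.testBit i = false then 2 ^ idx R h i X else 0

/-- Position of the atom `Y`. -/
noncomputable def atom (ℓ R : ℕ) (h : ℕ → ℕ → ℕ) (Y : ℕ) : ℝ :=
  2 * Real.pi * Y / 2 ^ ℓ + del ℓ R h Y

/-- Discrete distance (always positive). -/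
def dst (X Y : ℕ) : ℕ := if Y ≤ X then X - Y + 1 else Y - X

/-- Sign. -/
noncomputable def sgn (X Y : ℕ) : ℝ := if X < Y then -1 else 1

/-- Harmonic sum. -/
noncomputable def har (n : ℕ) : ℝ := ∑ m ∈ range n, 1 / ((m : ℝ) + 1)

/-- `T = 2π` circle. -/
abbrev Cir : Type := AddCircle (2 * Real.pi)

noncomputable instance : Fact (0 < 2 * Real.pi) := ⟨Real.two_pi_pos⟩

/-- Trigonometric polynomial with coefficients `c`, truncated at `D`. -/
noncomputable def tp (D : ℕ) (c : ℤ → ℂ) (x : Cir) : ℂ :=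
  ∑ d ∈ Icc (-(D : ℤ)) D, c d * fourier d x

/-- Symmetric partial sum of the Fourier series. -/
noncomputable def psum (N : ℕ) (f : Cir → ℂ) (x : Cir) : ℂ :=
  ∑ k ∈ Icc (-(N : ℤ)) N, fourierCoeff f k * fourier k x

end P091
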