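import Vale.Agent.P091.Defs

/-!
# P091 module FEJ: Fejér means of a sum of point masses

`fc N M a d = max 0 (1 - |d| / M) * (1/N) ∑_{Y < N} exp (- i d a_Y)`.
`tp M (fc N M a) x = (1/N) ∑_Y (1/M) |∑_{j<M} exp (i j (x - a_Y))|^2 ≥ 0` (induction on `M` for
`∑_{|d| ≤ M} (M - |d|) e^{idu} = |∑_{j<M} e^{iju}|^2`), so its norm is at most `M` and the integral
of its norm is the zeroth coefficient `1`.  For `n (n + 1) ≤ M` the truncation at `n` differs
from the Dirichlet sum by at most `∑_{|d| ≤ n} |d| / M = n (n + 1) / M ≤ 1`.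
-/

open Finset MeasureTheory

namespace P091

/-- Coefficients of the Fejér mean of `(1/N) ∑_{Y < N} δ_{a Y}`. -/
noncomputable def fc (N M : ℕ) (a : ℕ → ℝ) (d : ℤ) : ℂ :=
  ((max 0 (1 - |(d : ℝ)| / M) : ℝ) : ℂ) *
    ((1 / (N : ℂ)) * ∑ Y ∈ range N, Complex.exp (-(Complex.I * d * a Y)))

/-! ### sums over symmetric intervals -/

theorem fej_Icc_succ {A : Type} [AddCommMonoid A] (f : ℤ → A) (n : ℕ) :
    ∑ d ∈ Icc (-((n + 1 : ℕ) : ℤ)) ((n + 1 : ℕ) : ℤ), f d =
      ∑ d ∈ Icc (-(n : ℤ)) n, f d + (f ((n + 1 : ℕ) : ℤ) + f (-((n + 1 : ℕ) : ℤ))) := by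
  have h1 : Icc (-((n + 1 : ℕ) : ℤ)) ((n + 1 : ℕ) : ℤ) =
      insert (-((n + 1 : ℕ) : ℤ)) (insert (((n + 1 : ℕ) : ℤ)) (Icc (-(n : ℤ)) n)) := by
    ext d
    rw [Finset.mem_insert, Finset.mem_insert, Finset.mem_Icc, Finset.mem_Icc]
    push_cast
    omega
  rw [h1, Finset.sum_insert, Finset.sum_insert]
  · abel
  · rw [Finset.mem_Icc]
    push_cast
    omega
  · rw [Finset.mem_insert, Finset.mem_Icc]
    push_cast
    omega

theorem fej_sum_abs (n : ℕ) : ∑ d ∈ Icc (-(n : ℤ)) n, |(d : ℝ)| = n * (n + 1) := by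
  induction n with
  | zero => simp
  | succ n ih =>
    rw [fej_Icc_succ, ih]
    push_cast
    rw [abs_neg, abs_of_nonneg (by positivity)]
    ring

/-! ### the Fejér kernel -/

/-- the exponential -/
noncomputable def fejE (u : ℝ) (d : ℤ) : ℂ := Complex.exp (Complex.I * d * u)

theorem fejE_zero (u : ℝ) : fejE u 0 = 1 := by
  unfold fejE
  simp

theorem fejE_add (u : ℝ) (d d' : ℤ) : fejE u (d + d') = fejE u d * fejE u d' := by
  unfold fejE
  rw [← Complex.exp_add]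
  push_cast
  congr 1
  ring

theorem fejE_conj (u : ℝ) (d : ℤ) : (starRingEnd ℂ) (fejE u d) = fejE u (-d) := by
  unfold fejE
  rw [← Complex.exp_conj]
  congr 1
  simp

theorem fejE_norm (u : ℝ) (d : ℤ) : ‖fejE u d‖ = 1 := by
  unfold fejE
  have h : Complex.I * d * u = ((d * u : ℝ) : ℂ) * Complex.I := by
    push_cast
    ring
  rw [h, Complex.norm_exp_ofReal_mul_I]

/-- the partial sums -/
noncomputable def fejS (u : ℝ) (M : ℕ) : ℂ := ∑ j ∈ range M, fejE u j

theorem fejS_conj (u : ℝ) (M : ℕ) :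
    (starRingEnd ℂ) (fejS u M) = ∑ j ∈ range M, fejE u (-(j : ℤ)) := by
  unfold fejS
  rw [map_sum]
  exact Finset.sum_congr rfl fun j _ => fejE_conj u j

theorem fejS_shift (u : ℝ) (M : ℕ) : fejS u (M + 1) = 1 + fejE u 1 * fejS u M := by
  unfold fejS
  rw [Finset.sum_range_succ', Nat.cast_zero, fejE_zero, add_comm, Finset.mul_sum]
  congr 1
  refine Finset.sum_congr rfl fun j _ => ?_
  rw [← fejE_add]
  congr 1
  push_cast
  ring

/-- the Dirichlet kernel -/
theorem fej_dir (u : ℝ) (M : ℕ) : ∑ d ∈ Icc (-(M : ℤ)) M, fejE u d =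
    fejS u M * fejE u (-(M : ℤ)) + fejE u M * (starRingEnd ℂ) (fejS u M) + 1 := by
  induction M with
  | zero =>
    simp [fejS, fejE_zero]
  | succ M ih =>
    rw [fej_Icc_succ, ih, fejS_shift, map_add, map_mul, map_one, fejE_conj]
    have h1 : fejE u (-((M + 1 : ℕ) : ℤ)) = fejE u (-1) * fejE u (-(M : ℤ)) := by
      rw [← fejE_add]
      congr 1
      push_cast
      ring
    have h2 : fejE u ((M + 1 : ℕ) : ℤ) = fejE u 1 * fejE u M := by
      rw [← fejE_add]
      congr 1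
      push_cast
      ring
    have h3 : fejE u 1 * fejE u (-1) = 1 := by
      rw [← fejE_add]
      simp [fejE_zero]
    rw [h1, h2]
    linear_combination (-(fejS u M * fejE u (-(M : ℤ))) -
      fejE u M * (starRingEnd ℂ) (fejS u M)) * h3

/-- the Fejér identity -/
theorem fej_id (u : ℝ) (M : ℕ) :
    ∑ d ∈ Icc (-(M : ℤ)) M, ((((M : ℝ) - |(d : ℝ)| : ℝ)) : ℂ) * fejE u d =
      fejS u M * (starRingEnd ℂ) (fejS u M) := by
  induction M with
  | zero =>
    simp [fejS]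
  | succ M ih =>
    rw [fej_Icc_succ]
    have e1 : ((((((M + 1 : ℕ) : ℝ) - |((((M + 1 : ℕ) : ℤ)) : ℝ)| : ℝ)) : ℂ)) = 0 := by
      have : ((M + 1 : ℕ) : ℝ) - |((((M + 1 : ℕ) : ℤ)) : ℝ)| = 0 := by
        push_cast
        rw [abs_of_nonneg (by positivity)]
        ring
      rw [this, Complex.ofReal_zero]
    have e2' : ((((((M + 1 : ℕ) : ℝ) - |((-((M + 1 : ℕ) : ℤ) : ℤ) : ℝ)| : ℝ)) : ℂ)) = 0 := by
      have : ((M + 1 : ℕ) : ℝ) - |((-((M + 1 : ℕ) : ℤ) : ℤ) : ℝ)| = 0 := by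
        push_cast
        rw [abs_neg, abs_of_nonneg (by positivity)]
        ring
      rw [this, Complex.ofReal_zero]
    rw [e1, e2', zero_mul, zero_mul, add_zero, add_zero]
    have e3 : ∑ d ∈ Icc (-(M : ℤ)) M, (((((M + 1 : ℕ) : ℝ) - |(d : ℝ)| : ℝ)) : ℂ) * fejE u d
        = ∑ d ∈ Icc (-(M : ℤ)) M, ((((M : ℝ) - |(d : ℝ)| : ℝ)) : ℂ) * fejE u d
          + ∑ d ∈ Icc (-(M : ℤ)) M, fejE u d := by
      rw [← Finset.sum_add_distrib]
      refine Finset.sum_congr rfl fun d _ => ?_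
      push_cast
      ring
    rw [e3, ih, fej_dir]
    have e4 : fejS u (M + 1) = fejS u M + fejE u M := by
      unfold fejS
      rw [Finset.sum_range_succ]
    rw [e4, map_add, fejE_conj]
    have h3 : fejE u M * fejE u (-(M : ℤ)) = 1 := by
      rw [← fejE_add]
      simp [fejE_zero]
    linear_combination (-1 : ℂ) * h3

theorem fej_fourier (d : ℤ) (t : ℝ) : (fourier d (t : Cir) : ℂ) = fejE t d := by
  rw [fourier_coe_apply]
  unfold fejE
  congr 1
  have h1 : ((2 * Real.pi : ℝ) : ℂ) ≠ 0 := by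
    have := Real.two_pi_pos.ne'
    exact_mod_cast this
  rw [div_eq_iff h1]
  push_cast
  ring

theorem fej_coef (N M : ℕ) (a : ℕ → ℝ) (d : ℤ) (t : ℝ) :
    fc N M a d * fejE t d = ((max 0 (1 - |(d : ℝ)| / M) : ℝ) : ℂ) *
      ((1 / (N : ℂ)) * ∑ Y ∈ range N, fejE (t - a Y) d) := by
  unfold fc
  rw [mul_assoc, mul_assoc, Finset.sum_mul]
  congr 2
  refine Finset.sum_congr rfl fun Y _ => ?_
  unfold fejE
  rw [← Complex.exp_add]
  congr 1
  push_cast
  ring

theorem fej_avg_norm (N : ℕ) (hN : 0 < N) (b : ℕ → ℝ) (d : ℤ) :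
    ‖(1 / (N : ℂ)) * ∑ Y ∈ range N, fejE (b Y) d‖ ≤ 1 := by
  have hN' : (0 : ℝ) < N := by exact_mod_cast hN
  rw [norm_mul, norm_div, norm_one, Complex.norm_natCast]
  have h1 : ‖∑ Y ∈ range N, fejE (b Y) d‖ ≤ N := by
    refine (norm_sum_le _ _).trans ?_
    rw [Finset.sum_congr rfl fun Y _ => fejE_norm (b Y) d]
    simp
  calc 1 / (N : ℝ) * ‖∑ Y ∈ range N, fejE (b Y) d‖ ≤ 1 / (N : ℝ) * N :=
        mul_le_mul_of_nonneg_left h1 (by positivity)
    _ = 1 := by field_simp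

theorem fej_sum_weights (M : ℕ) (hM : 0 < M) :
    ∑ d ∈ Icc (-(M : ℤ)) M, max 0 (1 - |(d : ℝ)| / M) = M := by
  have hM' : (0 : ℝ) < M := by exact_mod_cast hM
  have h1 : ∀ d ∈ Icc (-(M : ℤ)) M, max 0 (1 - |(d : ℝ)| / M) = 1 - |(d : ℝ)| / M := by
    intro d hd
    rw [Finset.mem_Icc] at hd
    refine max_eq_right ?_
    rw [sub_nonneg, div_le_one hM', abs_le]
    constructor
    · exact_mod_cast hd.1
    · exact_mod_cast hd.2
  rw [Finset.sum_congr rfl h1, Finset.sum_sub_distrib, ← Finset.sum_div, fej_sum_abs,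
    Finset.sum_const, Int.card_Icc]
  have h2 : ((M : ℤ) + 1 - -(M : ℤ)).toNat = 2 * M + 1 := by omega
  rw [h2, nsmul_eq_mul]
  push_cast
  field_simp
  ring

theorem fejer_norm_le (N M : ℕ) (hN : 0 < N) (hM : 0 < M) (a : ℕ → ℝ) (x : Cir) :
    ‖tp M (fc N M a) x‖ ≤ M := by
  induction x using QuotientAddGroup.induction_on with
  | H t =>
    unfold tp
    refine (norm_sum_le _ _).trans ?_
    rw [← fej_sum_weights M hM]
    refine Finset.sum_le_sum fun d _ => ?_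
    have h1 : fc N M a d * (fourier d ((t : ℝ) : Cir) : ℂ) = ((max 0 (1 - |(d : ℝ)| / M) : ℝ) : ℂ) *
      ((1 / (N : ℂ)) * ∑ Y ∈ range N, fejE (t - a Y) d) := by
      rw [fej_fourier, fej_coef]
    have h2 : ‖fc N M a d * (fourier d ((t : ℝ) : Cir) : ℂ)‖ ≤ max 0 (1 - |(d : ℝ)| / M) := by
      rw [h1, norm_mul, Complex.norm_real, Real.norm_of_nonneg (le_max_left _ _)]
      calc max 0 (1 - |(d : ℝ)| / M) * ‖(1 / (N : ℂ)) * ∑ Y ∈ range N, fejE (t - a Y) d‖
          ≤ max 0 (1 - |(d : ℝ)| / M) * 1 :=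
            mul_le_mul_of_nonneg_left (fej_avg_norm N hN _ d) (le_max_left _ _)
        _ = _ := mul_one _
    exact h2

/-- the mean is a nonnegative real -/
theorem fej_tp_eq (N M : ℕ) (hM : 0 < M) (a : ℕ → ℝ) (t : ℝ) :
    tp M (fc N M a) (t : Cir) =
      (((1 / (N : ℝ)) * ∑ Y ∈ range N, (1 / (M : ℝ)) * ‖fejS (t - a Y) M‖ ^ 2 : ℝ) : ℂ) := by
  have hM' : (0 : ℝ) < M := by exact_mod_cast hM
  have hM'' : (M : ℂ) ≠ 0 := by exact_mod_cast hM.ne'
  unfold tp
  have h1 : ∀ d ∈ Icc (-(M : ℤ)) M, fc N M a d * (fourier d ((t : ℝ) : Cir) : ℂ) =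
      ∑ Y ∈ range N, (1 / (N : ℂ)) * ((1 / (M : ℂ)) *
        (((((M : ℝ) - |(d : ℝ)| : ℝ)) : ℂ) * fejE (t - a Y) d)) := by
    intro d hd
    rw [Finset.mem_Icc] at hd
    rw [fej_fourier, fej_coef]
    have h2 : max 0 (1 - |(d : ℝ)| / M) = 1 - |(d : ℝ)| / M := by
      refine max_eq_right ?_
      rw [sub_nonneg, div_le_one hM', abs_le]
      constructor
      · exact_mod_cast hd.1
      · exact_mod_cast hd.2
    rw [h2, Finset.mul_sum, Finset.mul_sum]
    refine Finset.sum_congr rfl fun Y _ => ?_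
    push_cast
    field_simp
  rw [Finset.sum_congr rfl h1, Finset.sum_comm]
  rw [Complex.ofReal_mul, Complex.ofReal_sum, Finset.mul_sum]
  refine Finset.sum_congr rfl fun Y _ => ?_
  rw [← Finset.mul_sum, ← Finset.mul_sum, fej_id, Complex.mul_conj]
  push_cast
  rw [Complex.normSq_eq_norm_sq]
  push_cast
  rfl

theorem fej_continuous (M : ℕ) (c : ℤ → ℂ) : Continuous (tp M c) := by
  unfold tp
  exact continuous_finsetSum _ fun d _ => continuous_const.mul (fourier d).continuous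

theorem fej_int_fourier (d : ℤ) :
    ∫ x : Cir, (fourier d x : ℂ) ∂AddCircle.haarAddCircle = if d = 0 then 1 else 0 := by
  split_ifs with h
  · subst h
    have h1 : ∀ x : Cir, (fourier 0 x : ℂ) = 1 := fun x => fourier_zero
    simp only [h1]
    rw [integral_const]
    simp
  · exact integral_eq_zero_of_add_right_eq_neg (μ := AddCircle.haarAddCircle)
      (fourier_add_half_inv_index h Real.two_pi_pos)

theorem fej_int_tp (N M : ℕ) (hN : 0 < N) (a : ℕ → ℝ) :
    ∫ x : Cir, tp M (fc N M a) x ∂AddCircle.haarAddCircle = 1 := by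
  unfold tp
  rw [integral_finsetSum]
  · have h1 : ∀ d ∈ Icc (-(M : ℤ)) M,
        ∫ x : Cir, fc N M a d * (fourier d x : ℂ) ∂AddCircle.haarAddCircle =
        if d = 0 then fc N M a d else 0 := by
      intro d _
      rw [integral_const_mul, fej_int_fourier]
      split_ifs
      · rw [mul_one]
      · rw [mul_zero]
    rw [Finset.sum_congr rfl h1, Finset.sum_ite_eq', if_pos]
    · unfold fc
      have hN' : (N : ℂ) ≠ 0 := by exact_mod_cast hN.ne'
      simp [hN']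
    · rw [Finset.mem_Icc]
      constructor <;> omega
  · intro d _
    have h2 : Continuous fun x : Cir => fc N M a d * (fourier d x : ℂ) :=
      continuous_const.mul (fourier d).continuous
    exact h2.integrable_of_hasCompactSupport (HasCompactSupport.of_compactSpace _)

theorem fejer_integral_le (N M : ℕ) (hN : 0 < N) (hM : 0 < M) (a : ℕ → ℝ) :
    ∫ x : Cir, ‖tp M (fc N M a) x‖ ∂AddCircle.haarAddCircle ≤ 1 := by
  have h1 : ∀ x : Cir, ‖tp M (fc N M a) x‖ = RCLike.re (tp M (fc N M a) x) := by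
    intro x
    induction x using QuotientAddGroup.induction_on with
    | H t =>
      have h2 := fej_tp_eq N M hM a t
      have h3 : 0 ≤ (1 / (N : ℝ)) * ∑ Y ∈ range N, (1 / (M : ℝ)) * ‖fejS (t - a Y) M‖ ^ 2 := by
        positivity
      have h4 : ‖tp M (fc N M a) (t : Cir)‖ = RCLike.re (tp M (fc N M a) (t : Cir)) := by
        rw [h2, Complex.norm_real, Real.norm_of_nonneg h3]
        exact (Complex.ofReal_re _).symm
      exact h4
  rw [integral_congr_ae (Filter.Eventually.of_forall h1), integral_re]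
  · rw [fej_int_tp N M hN a]
    simp
  · exact (fej_continuous M _).integrable_of_hasCompactSupport
      (HasCompactSupport.of_compactSpace _)

theorem fejer_trunc (N M : ℕ) (hN : 0 < N) (hM : 0 < M) (a : ℕ → ℝ) (n : ℕ)
    (hn : n * (n + 1) ≤ M) (x : ℝ) :
    ‖tp n (fc N M a) (x : Cir) - (1 / (N : ℂ)) * ∑ Y ∈ range N,
        ∑ j ∈ Icc (-(n : ℤ)) n, Complex.exp (Complex.I * j * ((x - a Y : ℝ) : ℂ))‖ ≤ 1 := by
  have hM' : (0 : ℝ) < M := by exact_mod_cast hM
  have hnM : n ≤ M := by nlinarith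
  have h1 : tp n (fc N M a) (x : Cir) - (1 / (N : ℂ)) * ∑ Y ∈ range N,
        ∑ j ∈ Icc (-(n : ℤ)) n, Complex.exp (Complex.I * j * ((x - a Y : ℝ) : ℂ)) =
      ∑ d ∈ Icc (-(n : ℤ)) n, ((-(|(d : ℝ)| / M) : ℝ) : ℂ) *
        ((1 / (N : ℂ)) * ∑ Y ∈ range N, fejE (x - a Y) d) := by
    unfold tp
    rw [Finset.sum_comm (s := range N), Finset.mul_sum, ← Finset.sum_sub_distrib]
    refine Finset.sum_congr rfl fun d hd => ?_
    rw [Finset.mem_Icc] at hd
    rw [fej_fourier, fej_coef]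
    have h2 : max 0 (1 - |(d : ℝ)| / M) = 1 - |(d : ℝ)| / M := by
      refine max_eq_right ?_
      rw [sub_nonneg, div_le_one hM', abs_le]
      constructor
      · have : -(M : ℤ) ≤ d := by omega
        exact_mod_cast this
      · have : d ≤ (M : ℤ) := by omega
        exact_mod_cast this
    rw [h2]
    have h3 : ∑ Y ∈ range N, Complex.exp (Complex.I * d * ((x - a Y : ℝ) : ℂ)) =
        ∑ Y ∈ range N, fejE (x - a Y) d := rfl
    rw [h3]
    push_cast
    ring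
  rw [h1]
  refine (norm_sum_le _ _).trans ?_
  have h4 : ∀ d ∈ Icc (-(n : ℤ)) n, ‖((-(|(d : ℝ)| / M) : ℝ) : ℂ) *
        ((1 / (N : ℂ)) * ∑ Y ∈ range N, fejE (x - a Y) d)‖ ≤ |(d : ℝ)| / M := by
    intro d _
    rw [norm_mul, Complex.norm_real, norm_neg, Real.norm_of_nonneg (by positivity)]
    calc |(d : ℝ)| / M * ‖(1 / (N : ℂ)) * ∑ Y ∈ range N, fejE (x - a Y) d‖
        ≤ |(d : ℝ)| / M * 1 := mul_le_mul_of_nonneg_left (fej_avg_norm N hN _ d) (by positivity)
      _ = _ := mul_one _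
  refine (Finset.sum_le_sum h4).trans ?_
  rw [← Finset.sum_div, fej_sum_abs, div_le_one hM']
  exact_mod_cast hn

end P091
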