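import Vale.Agent.P091.Defs

/-!
# P091 module MEAS: measure of a union of cells

The intervals `[2πX/N + 5π/(4N), 2πX/N + 7π/(4N)]`, `X < N`, are disjoint subsets of `(0, 2π]` of
length `π/(2N)`; `AddCircle.measurePreserving_mk`, `AddCircle.volume_eq_smul_haarAddCircle`.
The image set is compact, hence measurable.
-/

open Finset MeasureTheory

namespace P091

/-- left end point of the cell -/
private noncomputable def mA (Q X : ℕ) : ℝ :=
  2 * Real.pi * X / (4 * Q) + 5 * Real.pi / 4 / (4 * Q)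

/-- right end point of the cell -/
private noncomputable def mB (Q X : ℕ) : ℝ :=
  2 * Real.pi * X / (4 * Q) + 7 * Real.pi / 4 / (4 * Q)

private theorem meas_len (Q X : ℕ) (hQ : 0 < Q) : mB Q X - mA Q X = Real.pi / (8 * Q) := by
  have : (0 : ℝ) < Q := by exact_mod_cast hQ
  unfold mA mB
  field_simp
  ring

private theorem meas_A_pos (Q X : ℕ) (hQ : 0 < Q) : 0 < mA Q X := by
  have : (0 : ℝ) < Q := by exact_mod_cast hQ
  have := Real.pi_pos
  unfold mA
  positivity

private theorem meas_B_lt (Q X : ℕ) (hQ : 0 < Q) : mB Q X < 2 * Real.pi * (X + 1) / (4 * Q) := by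
  have hq : (0 : ℝ) < Q := by exact_mod_cast hQ
  have := Real.pi_pos
  unfold mB
  rw [← add_div, div_lt_div_iff_of_pos_right (by positivity)]
  nlinarith

private theorem meas_A_gt (Q X : ℕ) (hQ : 0 < Q) : 2 * Real.pi * X / (4 * Q) < mA Q X := by
  have hq : (0 : ℝ) < Q := by exact_mod_cast hQ
  have := Real.pi_pos
  unfold mA
  have : 0 < 5 * Real.pi / 4 / (4 * Q) := by positivity
  linarith

private theorem meas_lt (Q X Y : ℕ) (hQ : 0 < Q) (h : X < Y) : mB Q X < mA Q Y := by
  have hq : (0 : ℝ) < Q := by exact_mod_cast hQ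
  have hpi := Real.pi_pos
  refine (meas_B_lt Q X hQ).trans_le ((le_trans ?_ (meas_A_gt Q Y hQ).le))
  have h1 : ((X : ℝ) + 1) ≤ Y := by exact_mod_cast h
  gcongr

theorem cells_measure (Q : ℕ) (hQ : 0 < Q) (G : Finset ℕ) (hG : ∀ X ∈ G, X < 4 * Q)
    (hcard : Q ≤ G.card) :
    ∃ E : Set Cir, MeasurableSet E ∧ ENNReal.ofReal (1 / 16) ≤ AddCircle.haarAddCircle E ∧
      ∀ y ∈ E, ∃ X ∈ G, ∃ x : ℝ, (x : Cir) = y ∧
        2 * Real.pi * X / (4 * Q) + 5 * Real.pi / 4 / (4 * Q) ≤ x ∧
        x ≤ 2 * Real.pi * X / (4 * Q) + 7 * Real.pi / 4 / (4 * Q) := by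
  have hq : (0 : ℝ) < Q := by exact_mod_cast hQ
  have hpi := Real.pi_pos
  set S : Set ℝ := ⋃ X ∈ G, Set.Icc (mA Q X) (mB Q X) with hS
  have hSc : IsCompact S := G.isCompact_biUnion fun X _ => isCompact_Icc
  have hE : IsCompact ((fun x : ℝ => (x : Cir)) '' S) :=
    hSc.image (AddCircle.continuous_mk' (2 * Real.pi))
  refine ⟨(fun x : ℝ => (x : Cir)) '' S, hE.isClosed.measurableSet, ?_, ?_⟩
  · -- the volume of S
    have hdis : Set.PairwiseDisjoint (↑G : Set ℕ) fun X => Set.Icc (mA Q X) (mB Q X) := by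
      intro X _ Y _ hXY
      rw [Function.onFun, Set.disjoint_left]
      rintro x ⟨h1, h2⟩ ⟨h3, h4⟩
      rcases Nat.lt_or_gt_of_ne hXY with h | h
      · have := meas_lt Q X Y hQ h
        linarith
      · have := meas_lt Q Y X hQ h
        linarith
    have hvol : ENNReal.ofReal (Real.pi / 8) ≤ volume S := by
      rw [hS, measure_biUnion_finset hdis fun X _ => measurableSet_Icc]
      simp only [Real.volume_Icc]
      rw [Finset.sum_congr rfl fun X _ => by rw [meas_len Q X hQ], Finset.sum_const, nsmul_eq_mul,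
        ← ENNReal.ofReal_natCast, ← ENNReal.ofReal_mul (by positivity)]
      refine ENNReal.ofReal_le_ofReal ?_
      have h1 : (Q : ℝ) ≤ G.card := by exact_mod_cast hcard
      calc Real.pi / 8 = Q * (Real.pi / (8 * Q)) := by field_simp
        _ ≤ G.card * (Real.pi / (8 * Q)) := by gcongr
    have hsub : S ⊆ Set.Ioc 0 (0 + 2 * Real.pi) := by
      rw [zero_add]
      intro x hx
      rw [hS, Set.mem_iUnion₂] at hx
      obtain ⟨X, hX, h1, h2⟩ := hx
      refine ⟨(meas_A_pos Q X hQ).trans_le h1, h2.trans ((meas_B_lt Q X hQ).le.trans ?_)⟩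
      have h3 : ((X : ℝ) + 1) ≤ 4 * Q := by exact_mod_cast hG X hX
      rw [div_le_iff₀ (by positivity)]
      nlinarith
    have hmp := AddCircle.measurePreserving_mk (2 * Real.pi) 0
    have hvE : volume S ≤ volume ((fun x : ℝ => (x : Cir)) '' S) := by
      rw [← hmp.measure_preimage hE.isClosed.measurableSet.nullMeasurableSet]
      rw [Measure.restrict_apply (hmp.measurable hE.isClosed.measurableSet)]
      exact measure_mono fun x hx => ⟨⟨x, hx, rfl⟩, hsub hx⟩
    have h1 := hvol.trans hvE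
    rw [AddCircle.volume_eq_smul_haarAddCircle, Measure.smul_apply, smul_eq_mul] at h1
    have h2 : ENNReal.ofReal (Real.pi / 8) =
        ENNReal.ofReal (2 * Real.pi) * ENNReal.ofReal (1 / 16) := by
      rw [← ENNReal.ofReal_mul (by positivity)]
      congr 1
      ring
    rw [h2] at h1
    refine (ENNReal.mul_le_mul_iff_right ?_ ENNReal.ofReal_ne_top).1 h1
    rw [Ne, ENNReal.ofReal_eq_zero]
    push Not
    positivity
  · rintro y ⟨x, hx, rfl⟩
    rw [hS, Set.mem_iUnion₂] at hx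
    obtain ⟨X, hX, h1, h2⟩ := hx
    exact ⟨X, hX, x, rfl, h1, h2⟩

end P091
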