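import Vale.Agent.P091.Hash
import Vale.Agent.P091.Cell

/-!
# P091 module SEL: selection of the hash and of the good cells

`R = 2 ^ 14 * (L + 2)`.  Apply `hash_exists` with `wt X Y = 4 / dst X Y` for `2^L ≤ X < 3 * 2^L`
and `0` otherwise; `dst_sum_le` bounds the row sums by `8 (har (2^L) + 3)`.  By Markov at least
`2 ^ L` of the `2 * 2 ^ L` middle `X` satisfy
`∑_Y 4 kap X Y / dst X Y ≤ 2 * (2 (L+2) / R) * 8 (har (2^L) + 3) = (har (2^L) + 3) / 512`.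
For these `X`, `cell` gives the lower bound
`(1/3)(har/4 - 1) - π (har + 3) / 512 - (π / 2^13) * 8 (har + 3) - 1 ≥ 0.073 har - 1.4`
and `har (2^L) ≥ L log 2 ≥ 0.69 L`.
The frequencies are `2^(L+2) (mlt + q) ≤ 2^(L+2) * 2^(14 + R (L+2)) = 2 ^ (L + 16 + 2^14 (L+2)^2)`.
-/

open Finset

namespace P091

/-- Upper bound for the frequencies. -/
def KK (L : ℕ) : ℕ := 2 ^ (L + 16 + 2 ^ 14 * (L + 2) ^ 2)

theorem sel_kap_nonneg (ℓ R : ℕ) (h : ℕ → ℕ → ℕ) (X Y : ℕ) : 0 ≤ kap ℓ R h X Y := by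
  unfold kap
  refine Finset.sum_nonneg fun i _ => Finset.sum_nonneg fun j _ => ?_
  split_ifs
  · unfold wgt
    split_ifs
    · positivity
    · exact le_rfl
  · exact le_rfl

theorem sel_dst_pos (X Y : ℕ) : 0 < dst X Y := by
  unfold dst
  split_ifs with h <;> omega

/-- the weighted error of a row -/
noncomputable def selS (L R : ℕ) (h : ℕ → ℕ → ℕ) (X : ℕ) : ℝ :=
  ∑ Y ∈ range (2 ^ (L + 2)), 4 / (dst X Y : ℝ) * kap (L + 2) R h X Y

theorem selS_nonneg (L R : ℕ) (h : ℕ → ℕ → ℕ) (X : ℕ) : 0 ≤ selS L R h X :=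
  Finset.sum_nonneg fun Y _ => mul_nonneg (by positivity) (sel_kap_nonneg _ _ _ _ _)

theorem sel_pow (L : ℕ) : 2 ^ (L + 2) = 4 * 2 ^ L := by
  rw [pow_add]; ring

theorem sel_row (L X : ℕ) (hX : X < 3 * 2 ^ L) :
    ∑ Y ∈ range (2 ^ (L + 2)), 4 / (dst X Y : ℝ) ≤ 8 * (har (2 ^ L) + 3) := by
  rw [sel_pow]
  exact dst_sum_le (2 ^ L) (by positivity) X (by have : 0 < 2 ^ L := by positivity
                                                 omega)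

theorem sel_har_nonneg (n : ℕ) : 0 ≤ har n :=
  Finset.sum_nonneg fun m _ => by positivity

theorem sel_sum (L : ℕ) : ∃ h : ℕ → ℕ → ℕ, (∀ i p, h i p < 2 ^ 14 * (L + 2)) ∧
    ∑ X ∈ Ico (2 ^ L) (3 * 2 ^ L), selS L (2 ^ 14 * (L + 2)) h X ≤
      2 ^ L * ((har (2 ^ L) + 3) / 512) := by
  classical
  obtain ⟨h, hh, hb⟩ := hash_exists (L + 2) (2 ^ 14 * (L + 2)) (by positivity)
    (fun X Y => if 2 ^ L ≤ X ∧ X < 3 * 2 ^ L then 4 / (dst X Y : ℝ) else 0)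
    (fun X Y => by split_ifs <;> positivity)
  refine ⟨h, hh, ?_⟩
  have hfil : (range (2 ^ (L + 2))).filter (fun X => 2 ^ L ≤ X ∧ X < 3 * 2 ^ L) =
      Ico (2 ^ L) (3 * 2 ^ L) := by
    ext X
    simp only [Finset.mem_filter, Finset.mem_range, Finset.mem_Ico, sel_pow]
    constructor
    · rintro ⟨_, h⟩; exact h
    · rintro ⟨h1, h2⟩
      have : 0 < 2 ^ L := by positivity
      exact ⟨by omega, h1, h2⟩
  have e1 : ∑ X ∈ range (2 ^ (L + 2)), ∑ Y ∈ range (2 ^ (L + 2)),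
      (if 2 ^ L ≤ X ∧ X < 3 * 2 ^ L then 4 / (dst X Y : ℝ) else 0) *
        kap (L + 2) (2 ^ 14 * (L + 2)) h X Y =
      ∑ X ∈ Ico (2 ^ L) (3 * 2 ^ L), selS L (2 ^ 14 * (L + 2)) h X := by
    rw [← hfil, Finset.sum_filter]
    refine Finset.sum_congr rfl fun X _ => ?_
    split_ifs with hX
    · rfl
    · simp
  have e2 : ∑ X ∈ range (2 ^ (L + 2)), ∑ Y ∈ range (2 ^ (L + 2)),
      (if 2 ^ L ≤ X ∧ X < 3 * 2 ^ L then 4 / (dst X Y : ℝ) else 0) ≤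
      2 * 2 ^ L * (8 * (har (2 ^ L) + 3)) := by
    have e3 : ∑ X ∈ range (2 ^ (L + 2)), ∑ Y ∈ range (2 ^ (L + 2)),
      (if 2 ^ L ≤ X ∧ X < 3 * 2 ^ L then 4 / (dst X Y : ℝ) else 0) =
      ∑ X ∈ Ico (2 ^ L) (3 * 2 ^ L), ∑ Y ∈ range (2 ^ (L + 2)), 4 / (dst X Y : ℝ) := by
      rw [← hfil, Finset.sum_filter]
      refine Finset.sum_congr rfl fun X _ => ?_
      split_ifs with hX
      · rfl
      · simp
    rw [e3]
    refine (Finset.sum_le_card_nsmul _ _ (8 * (har (2 ^ L) + 3)) fun X hX =>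
      sel_row L X (Finset.mem_Ico.mp hX).2).trans (le_of_eq ?_)
    rw [Nat.card_Ico, nsmul_eq_mul]
    have : 3 * 2 ^ L - 2 ^ L = 2 * 2 ^ L := by omega
    rw [this]
    push_cast
    ring
  rw [e1] at hb
  refine hb.trans ?_
  have h3 : (2 * ((L + 2 : ℕ) : ℝ) / ((2 ^ 14 * (L + 2) : ℕ) : ℝ)) = 1 / 2 ^ 13 := by
    push_cast
    have : (L : ℝ) + 2 ≠ 0 := by positivity
    field_simp
    norm_num
  rw [h3]
  calc (1 / 2 ^ 13 : ℝ) * _ ≤ (1 / 2 ^ 13) * (2 * 2 ^ L * (8 * (har (2 ^ L) + 3))) :=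
        mul_le_mul_of_nonneg_left e2 (by positivity)
    _ = 2 ^ L * ((har (2 ^ L) + 3) / 512) := by ring

theorem sel_good (L : ℕ) : ∃ (h : ℕ → ℕ → ℕ) (G : Finset ℕ),
    (∀ i p, h i p < 2 ^ 14 * (L + 2)) ∧ (∀ X ∈ G, 2 ^ L ≤ X ∧ X < 3 * 2 ^ L) ∧
    2 ^ L ≤ G.card ∧
    ∀ X ∈ G, selS L (2 ^ 14 * (L + 2)) h X ≤ (har (2 ^ L) + 3) / 512 := by
  classical
  obtain ⟨h, hh, hb⟩ := sel_sum L
  set thr : ℝ := (har (2 ^ L) + 3) / 512 with hthr
  have hthr0 : 0 < thr := by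
    have := sel_har_nonneg (2 ^ L)
    rw [hthr]; positivity
  set M := Ico (2 ^ L) (3 * 2 ^ L) with hM
  set f : ℕ → ℝ := selS L (2 ^ 14 * (L + 2)) h with hf
  refine ⟨h, M.filter (fun X => f X ≤ thr), hh, fun X hX => ?_, ?_, fun X hX => ?_⟩
  · exact Finset.mem_Ico.mp (Finset.mem_filter.mp hX).1
  · have hcard : M.card = 2 * 2 ^ L := by
      rw [hM, Nat.card_Ico]; omega
    have hsplit := Finset.card_filter_add_card_filter_not (s := M) (fun X => f X ≤ thr)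
    have hbad : ((M.filter (fun X => ¬ f X ≤ thr)).card : ℝ) * thr ≤ 2 ^ L * thr := by
      refine le_trans ?_ hb
      calc ((M.filter (fun X => ¬ f X ≤ thr)).card : ℝ) * thr
          = ∑ X ∈ M.filter (fun X => ¬ f X ≤ thr), thr := by
            rw [Finset.sum_const, nsmul_eq_mul]
        _ ≤ ∑ X ∈ M.filter (fun X => ¬ f X ≤ thr), f X := by
            refine Finset.sum_le_sum fun X hX => ?_
            exact (not_le.mp (Finset.mem_filter.mp hX).2).le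
        _ ≤ ∑ X ∈ M, f X :=
            Finset.sum_le_sum_of_subset_of_nonneg (Finset.filter_subset _ _)
              fun X _ _ => selS_nonneg _ _ _ _
    have hbad2 : ((M.filter (fun X => ¬ f X ≤ thr)).card : ℝ) ≤ 2 ^ L :=
      le_of_mul_le_mul_right hbad hthr0
    have hbad3 : (M.filter (fun X => ¬ f X ≤ thr)).card ≤ 2 ^ L := by exact_mod_cast hbad2
    omega
  · exact (Finset.mem_filter.mp hX).2

theorem select (L : ℕ) : ∃ (a : ℕ → ℝ) (G : Finset ℕ),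
    (∀ X ∈ G, 2 ^ L ≤ X ∧ X < 3 * 2 ^ L) ∧ 2 ^ L ≤ G.card ∧
    ∀ X ∈ G, ∀ x : ℝ,
      2 * Real.pi * X / 2 ^ (L + 2) + 5 * Real.pi / 4 / 2 ^ (L + 2) ≤ x →
      x ≤ 2 * Real.pi * X / 2 ^ (L + 2) + 7 * Real.pi / 4 / 2 ^ (L + 2) →
      ∃ n : ℕ, n ≤ KK L ∧ (L : ℝ) / 20 - 2 ≤
        ‖(1 / ((2 ^ (L + 2) : ℕ) : ℂ)) * ∑ Y ∈ range (2 ^ (L + 2)),
          ∑ j ∈ Icc (-(n : ℤ)) n, Complex.exp (Complex.I * j * ((x - a Y : ℝ) : ℂ))‖ := by
  obtain ⟨h, G, hh, hG1, hG2, hG3⟩ := sel_good L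
  refine ⟨fun Y => atom (L + 2) (2 ^ 14 * (L + 2)) h Y, G, hG1, hG2, fun X hX x hx1 hx2 => ?_⟩
  obtain ⟨q, hq, hc⟩ := cell L (2 ^ 14 * (L + 2)) h hh X (hG1 X hX).1 (hG1 X hX).2 x hx1 hx2
  refine ⟨2 ^ (L + 2) * (mlt (L + 2) (2 ^ 14 * (L + 2)) h X + q), ?_, le_trans ?_ hc⟩
  · have h1 := mlt_lt (L + 2) (2 ^ 14 * (L + 2)) h hh X
    unfold KK
    have h2 : mlt (L + 2) (2 ^ 14 * (L + 2)) h X + q ≤ 2 ^ (14 + 2 ^ 14 * (L + 2) * (L + 2)) := by
      omega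
    calc 2 ^ (L + 2) * (mlt (L + 2) (2 ^ 14 * (L + 2)) h X + q)
        ≤ 2 ^ (L + 2) * 2 ^ (14 + 2 ^ 14 * (L + 2) * (L + 2)) := Nat.mul_le_mul_left _ h2
      _ = 2 ^ (L + 16 + 2 ^ 14 * (L + 2) ^ 2) := by
        rw [← pow_add]
        generalize 2 ^ 14 = A
        have e : L + 2 + (14 + A * (L + 2) * (L + 2)) = L + 16 + A * (L + 2) ^ 2 := by ring
        rw [e]
  · have hS := hG3 X hX
    have hrow := sel_row L X (hG1 X hX).2
    have hH := sel_har_nonneg (2 ^ L)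
    have hL := har_ge L
    have hlog := Real.log_two_gt_d9
    have hpi := Real.pi_lt_d2
    have hpi0 := Real.pi_pos
    have e : ∑ Y ∈ range (2 ^ (L + 2)),
            (Real.pi * kap (L + 2) (2 ^ 14 * (L + 2)) h X Y + Real.pi / 2 ^ 13) *
              (4 / (dst X Y : ℝ)) =
        Real.pi * selS L (2 ^ 14 * (L + 2)) h X +
          Real.pi / 2 ^ 13 * ∑ Y ∈ range (2 ^ (L + 2)), 4 / (dst X Y : ℝ) := by
      unfold selS
      rw [Finset.mul_sum, Finset.mul_sum, ← Finset.sum_add_distrib]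
      refine Finset.sum_congr rfl fun Y _ => ?_
      ring
    rw [e]
    have h1 : Real.pi * selS L (2 ^ 14 * (L + 2)) h X ≤
        3.15 * ((har (2 ^ L) + 3) / 512) := by
      refine (mul_le_mul_of_nonneg_left hS hpi0.le).trans
        (mul_le_mul_of_nonneg_right hpi.le ?_)
      positivity
    have h2 : Real.pi / 2 ^ 13 * ∑ Y ∈ range (2 ^ (L + 2)), 4 / (dst X Y : ℝ) ≤
        3.15 / 2 ^ 13 * (8 * (har (2 ^ L) + 3)) := by
      refine (mul_le_mul_of_nonneg_left hrow (by positivity)).trans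
        (mul_le_mul_of_nonneg_right ?_ (by positivity))
      exact div_le_div_of_nonneg_right hpi.le (by positivity)
    have h3 : (L : ℝ) * 0.693 ≤ har (2 ^ L) := by
      refine le_trans (mul_le_mul_of_nonneg_left ?_ (Nat.cast_nonneg L)) hL
      norm_num at hlog ⊢
      linarith
    have hL0 : (0 : ℝ) ≤ L := Nat.cast_nonneg L
    norm_num at h1 h2 h3 ⊢
    linarith

end P091
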