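import Vale.Agent.P091.Fejer
import Vale.Agent.P091.Sel
import Vale.Agent.P091.Meas

/-!
# P091 module FIN: the finite stage

`M = KK L * (KK L + 1)`, `c = fc (2^(L+2)) M a`; combine `select`, `fejer_*`, `cells_measure`.
`M ≤ 2 * KK L ^ 2 = 2 ^ (1 + 2 (L + 16 + 2^14 (L+2)^2)) ≤ exp (400000 * L ^ 2)` for `L ≥ 1`
(`(L+2)^2 ≤ 9 L^2`, `2^14 * 9 * 2 * log 2 < 210000`).
-/

open Finset MeasureTheory

namespace P091

private theorem fin_size (L : ℕ) (hL : 1 ≤ L) :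
    ((KK L * (KK L + 1) : ℕ) : ℝ) ≤ Real.exp (400000 * (L : ℝ) ^ 2) := by
  have hK : 1 ≤ KK L := Nat.one_le_two_pow
  have h1 : KK L * (KK L + 1) ≤ 2 ^ (1 + 2 * (L + 16 + 2 ^ 14 * (L + 2) ^ 2)) := by
    have h2 : 2 ^ (1 + 2 * (L + 16 + 2 ^ 14 * (L + 2) ^ 2)) = 2 * (KK L * KK L) := by
      unfold KK
      rw [← pow_add, pow_add 2 1, pow_one, two_mul (L + 16 + 2 ^ 14 * (L + 2) ^ 2)]
    rw [h2]
    nlinarith
  have h3 : 1 + 2 * (L + 16 + 2 ^ 14 * (L + 2) ^ 2) ≤ 400000 * L ^ 2 := by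
    nlinarith
  have h4 : ((KK L * (KK L + 1) : ℕ) : ℝ) ≤ (2 : ℝ) ^ (400000 * L ^ 2) := by
    have h5 := h1.trans (Nat.pow_le_pow_right (by norm_num : 0 < 2) h3)
    exact_mod_cast h5
  refine h4.trans ?_
  have h6 : (2 : ℝ) ≤ Real.exp 1 := by
    have := Real.add_one_le_exp (1 : ℝ)
    linarith
  calc (2 : ℝ) ^ (400000 * L ^ 2) ≤ Real.exp 1 ^ (400000 * L ^ 2) :=
        pow_le_pow_left₀ (by norm_num) h6 _
    _ = Real.exp (400000 * (L : ℝ) ^ 2) := by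
        rw [← Real.exp_nat_mul]
        congr 1
        push_cast
        ring

theorem finite_stage (L : ℕ) (hL : 1 ≤ L) : ∃ (D : ℕ) (c : ℤ → ℂ), 0 < D ∧
    (∀ x : Cir, ‖tp D c x‖ ≤ Real.exp (400000 * (L : ℝ) ^ 2)) ∧
    ∫ x : Cir, ‖tp D c x‖ ∂AddCircle.haarAddCircle ≤ 1 ∧
    ∃ E : Set Cir, MeasurableSet E ∧ ENNReal.ofReal (1 / 16) ≤ AddCircle.haarAddCircle E ∧
      ∀ y ∈ E, ∃ n : ℕ, n ≤ D ∧ (L : ℝ) / 20 - 3 ≤ ‖tp n c y‖ := by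
  obtain ⟨a, G, hG, hcard, hsel⟩ := select L
  have hK : 0 < KK L := Nat.two_pow_pos _
  have hM : 0 < KK L * (KK L + 1) := Nat.mul_pos hK (Nat.succ_pos _)
  have hN : 0 < 2 ^ (L + 2) := Nat.two_pow_pos _
  refine ⟨KK L * (KK L + 1), fc (2 ^ (L + 2)) (KK L * (KK L + 1)) a, hM, ?_, ?_, ?_⟩
  · intro x
    exact (fejer_norm_le _ _ hN hM a x).trans (fin_size L hL)
  · exact fejer_integral_le _ _ hN hM a
  · obtain ⟨E, hE, hmeas, hpt⟩ := cells_measure (2 ^ L) (Nat.two_pow_pos _) G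
      (fun X hX => by have := (hG X hX).2; omega) hcard
    refine ⟨E, hE, hmeas, fun y hy => ?_⟩
    obtain ⟨X, hXG, x, hxy, h1, h2⟩ := hpt y hy
    have h4 : (4 : ℝ) * ((2 ^ L : ℕ) : ℝ) = 2 ^ (L + 2) := by
      push_cast
      ring
    rw [h4] at h1 h2
    obtain ⟨n, hn, hlow⟩ := hsel X hXG x h1 h2
    refine ⟨n, ?_, ?_⟩
    · calc n ≤ KK L := hn
        _ ≤ KK L * (KK L + 1) := Nat.le_mul_of_pos_right _ (Nat.succ_pos _)
    · have h5 := fejer_trunc (2 ^ (L + 2)) (KK L * (KK L + 1)) hN hM a n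
        (Nat.mul_le_mul hn (Nat.add_le_add_right hn 1)) x
      rw [hxy] at h5
      have h6 := norm_sub_norm_le ((1 / ((2 ^ (L + 2) : ℕ) : ℂ)) * ∑ Y ∈ range (2 ^ (L + 2)),
        ∑ j ∈ Icc (-(n : ℤ)) n, Complex.exp (Complex.I * j * ((x - a Y : ℝ) : ℂ)))
        (tp n (fc (2 ^ (L + 2)) (KK L * (KK L + 1)) a) y)
      rw [norm_sub_rev] at h6
      linarith

end P091
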