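import Vale.Agent.P091.Defs

/-!
# P091 module HASH: a good hash exists (averaging over all hashes)

Average over `g : Fin ℓ × Fin (2 ^ ℓ) → Fin R`, `h i p = g (i, p)` (and `0` outside the range).
For two DIFFERENT coordinates `p ≠ q` and any `F ≥ 0`,
`R * ∑ g, F (g p) (g q) = ∑ g, ∑ c : Fin R, F (g p) c` (e.g. by the bijection
`(g, c) ↦ (Function.update g q c, g q)`), and for every `k`,
`∑ j < ℓ, ∑ c < R, wgt k (14 + R * j + c) ≤ ∑ l ≥ k, 2 ^ (-(l - k)) = 2`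
(the map `(j, c) ↦ 14 + R * j + c` is injective).  Hence the average over `g` of `kap` is at most
`2 ℓ / R` for every `X, Y < 2 ^ ℓ`.
-/

open Finset

namespace P091

lemma hash_wgt_nonneg (k l : ℕ) : 0 ≤ wgt k l := by
  unfold wgt
  split_ifs
  · positivity
  · exact le_rfl

lemma hash_wgt_sum (k n : ℕ) : ∑ l ∈ range n, wgt k l ≤ 2 := by
  have h0 : ∀ m ≤ k, ∑ l ∈ range m, wgt k l = 0 := by
    intro m hm
    refine sum_eq_zero fun l hl => ?_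
    have hl' : l < m := mem_range.1 hl
    unfold wgt
    rw [if_neg (by omega)]
  rcases le_total n k with h | h
  · rw [h0 n h]
    norm_num
  · obtain ⟨m, rfl⟩ := Nat.exists_eq_add_of_le h
    rw [sum_range_add, h0 k le_rfl, zero_add]
    have h1 : ∀ x ∈ range m, wgt k (k + x) = (1 / (2 : ℝ)) ^ x := by
      intro x _
      unfold wgt
      rw [if_pos (by omega)]
      congr 1
      omega
    rw [sum_congr rfl h1]
    exact sum_geometric_two_le m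

lemma hash_sum_mul (f : ℕ → ℝ) (ℓ R : ℕ) :
    ∑ j ∈ range ℓ, ∑ c ∈ range R, f (R * j + c) = ∑ l ∈ range (R * ℓ), f l := by
  induction ℓ with
  | zero => simp
  | succ ℓ ih => rw [sum_range_succ, ih, Nat.mul_succ, sum_range_add]

lemma hash_wgt_double (k ℓ R : ℕ) :
    ∑ j ∈ range ℓ, ∑ c ∈ range R, wgt k (14 + R * j + c) ≤ 2 := by
  have h1 : ∀ j ∈ range ℓ, ∀ c ∈ range R, wgt k (14 + R * j + c) =
      (fun l => wgt k (14 + l)) (R * j + c) := by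
    intro j _ c _
    simp only
    congr 1
    ring
  rw [sum_congr rfl fun j hj => sum_congr rfl (h1 j hj), hash_sum_mul (fun l => wgt k (14 + l))]
  have h2 := sum_range_add (fun l => wgt k l) 14 (R * ℓ)
  have h3 := hash_wgt_sum k (14 + R * ℓ)
  have h4 : 0 ≤ ∑ l ∈ range 14, wgt k l := sum_nonneg fun l _ => hash_wgt_nonneg k l
  linarith

section Swap

variable {α β : Type} [Fintype α] [DecidableEq α] [Fintype β]

/-- `(g, c) ↦ (update g q c, g q)` -/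
def hashE (q : α) : (α → β) × β ≃ (α → β) × β where
  toFun x := (Function.update x.1 q x.2, x.1 q)
  invFun x := (Function.update x.1 q x.2, x.1 q)
  left_inv x := by simp
  right_inv x := by simp

lemma hash_update (q : α) (H : (α → β) → ℝ) :
    ∑ g : α → β, ∑ c : β, H (Function.update g q c) = (Fintype.card β : ℝ) * ∑ g : α → β, H g := by
  have h1 : ∑ g : α → β, ∑ c : β, H (Function.update g q c) =
      ∑ x : (α → β) × β, H (Function.update x.1 q x.2) :=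
    (Fintype.sum_prod_type (fun x : (α → β) × β => H (Function.update x.1 q x.2))).symm
  have h2 : ∑ x : (α → β) × β, H (Function.update x.1 q x.2) = ∑ x : (α → β) × β, H x.1 :=
    Fintype.sum_equiv (hashE q) _ _ fun x => rfl
  rw [h1, h2, Fintype.sum_prod_type, mul_sum]
  refine sum_congr rfl fun g _ => ?_
  simp

lemma hash_swap {p q : α} (hpq : p ≠ q) (F : β → β → ℝ) :
    (Fintype.card β : ℝ) * ∑ g : α → β, F (g p) (g q) = ∑ g : α → β, ∑ c : β, F (g p) c := by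
  rw [← hash_update q (fun g => F (g p) (g q))]
  refine sum_congr rfl fun g _ => sum_congr rfl fun c _ => ?_
  simp only [Function.update_self, Function.update_of_ne hpq]

end Swap

/-- the hash of `g` -/
def hashH (ℓ R : ℕ) (g : Fin ℓ × Fin (2 ^ ℓ) → Fin R) (i p : ℕ) : ℕ :=
  if h : i < ℓ ∧ p < 2 ^ ℓ then (g (⟨i, h.1⟩, ⟨p, h.2⟩) : ℕ) else 0

lemma hashH_lt {ℓ R : ℕ} (hR : 0 < R) (g : Fin ℓ × Fin (2 ^ ℓ) → Fin R) (i p : ℕ) :
    hashH ℓ R g i p < R := by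
  unfold hashH
  split_ifs
  · exact Fin.is_lt _
  · exact hR

lemma hashH_eq {ℓ R : ℕ} (g : Fin ℓ × Fin (2 ^ ℓ) → Fin R) {i p : ℕ} (hi : i < ℓ)
    (hp : p < 2 ^ ℓ) : hashH ℓ R g i p = (g (⟨i, hi⟩, ⟨p, hp⟩) : ℕ) := by
  unfold hashH
  rw [dif_pos ⟨hi, hp⟩]

/-- one pair `(i, j)` -/
lemma hash_pair {ℓ R : ℕ} {X Y : ℕ} (hX : X < 2 ^ ℓ) (hY : Y < 2 ^ ℓ) {i j : ℕ} (hi : i < ℓ)
    (hj : j < ℓ) :
    (R : ℝ) * ∑ g : Fin ℓ × Fin (2 ^ ℓ) → Fin R,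
      (if X.testBit i = false ∧ Y.testBit j = true ∧ ¬ (i = j ∧ X / 2 ^ (i + 1) = Y / 2 ^ (j + 1))
        then wgt (idx R (hashH ℓ R g) i X) (idx R (hashH ℓ R g) j Y) else 0) ≤
    ∑ g : Fin ℓ × Fin (2 ^ ℓ) → Fin R, ∑ c ∈ range R,
      wgt (idx R (hashH ℓ R g) i X) (14 + R * j + c) := by
  by_cases hc : X.testBit i = false ∧ Y.testBit j = true ∧
      ¬ (i = j ∧ X / 2 ^ (i + 1) = Y / 2 ^ (j + 1))
  · simp only [if_pos hc]
    have hp : X / 2 ^ (i + 1) < 2 ^ ℓ := (Nat.div_le_self _ _).trans_lt hX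
    have hq : Y / 2 ^ (j + 1) < 2 ^ ℓ := (Nat.div_le_self _ _).trans_lt hY
    have hne : ((⟨i, hi⟩, ⟨X / 2 ^ (i + 1), hp⟩) : Fin ℓ × Fin (2 ^ ℓ)) ≠
        (⟨j, hj⟩, ⟨Y / 2 ^ (j + 1), hq⟩) := by
      intro h
      rw [Prod.mk.injEq, Fin.mk.injEq, Fin.mk.injEq] at h
      exact hc.2.2 h
    have h1 := hash_swap (β := Fin R) hne
      (fun a b => wgt (14 + R * i + (a : ℕ)) (14 + R * j + (b : ℕ)))
    rw [Fintype.card_fin] at h1
    have h2 : ∀ g : Fin ℓ × Fin (2 ^ ℓ) → Fin R, idx R (hashH ℓ R g) i X =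
        14 + R * i + (g (⟨i, hi⟩, ⟨X / 2 ^ (i + 1), hp⟩) : ℕ) := fun g => by
      unfold idx
      rw [hashH_eq g hi hp]
    have h3 : ∀ g : Fin ℓ × Fin (2 ^ ℓ) → Fin R, idx R (hashH ℓ R g) j Y =
        14 + R * j + (g (⟨j, hj⟩, ⟨Y / 2 ^ (j + 1), hq⟩) : ℕ) := fun g => by
      unfold idx
      rw [hashH_eq g hj hq]
    simp only [h2, h3]
    rw [h1]
    refine le_of_eq (sum_congr rfl fun g _ => ?_)
    exact Fin.sum_univ_eq_sum_range (fun c => wgt (14 + R * i +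
      (g (⟨i, hi⟩, ⟨X / 2 ^ (i + 1), hp⟩) : ℕ)) (14 + R * j + c)) R
  · simp only [if_neg hc, sum_const_zero, mul_zero]
    exact sum_nonneg fun g _ => sum_nonneg fun c _ => hash_wgt_nonneg _ _

/-- the average of `kap` -/
lemma hash_kap {ℓ R : ℕ} {X Y : ℕ} (hX : X < 2 ^ ℓ) (hY : Y < 2 ^ ℓ) :
    (R : ℝ) * ∑ g : Fin ℓ × Fin (2 ^ ℓ) → Fin R, kap ℓ R (hashH ℓ R g) X Y ≤
      ∑ _g : Fin ℓ × Fin (2 ^ ℓ) → Fin R, (2 * ℓ : ℝ) := by
  unfold kap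
  rw [sum_comm, mul_sum]
  have h1 : ∀ i ∈ range ℓ, (R : ℝ) * ∑ g : Fin ℓ × Fin (2 ^ ℓ) → Fin R, ∑ j ∈ range ℓ,
      (if X.testBit i = false ∧ Y.testBit j = true ∧ ¬ (i = j ∧ X / 2 ^ (i + 1) = Y / 2 ^ (j + 1))
        then wgt (idx R (hashH ℓ R g) i X) (idx R (hashH ℓ R g) j Y) else 0) ≤
      ∑ _g : Fin ℓ × Fin (2 ^ ℓ) → Fin R, (2 : ℝ) := by
    intro i hi
    rw [sum_comm, mul_sum]
    have h2 : ∀ j ∈ range ℓ, (R : ℝ) * ∑ g : Fin ℓ × Fin (2 ^ ℓ) → Fin R,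
        (if X.testBit i = false ∧ Y.testBit j = true ∧
            ¬ (i = j ∧ X / 2 ^ (i + 1) = Y / 2 ^ (j + 1))
          then wgt (idx R (hashH ℓ R g) i X) (idx R (hashH ℓ R g) j Y) else 0) ≤
        ∑ g : Fin ℓ × Fin (2 ^ ℓ) → Fin R, ∑ c ∈ range R,
          wgt (idx R (hashH ℓ R g) i X) (14 + R * j + c) := fun j hj =>
      hash_pair hX hY (mem_range.1 hi) (mem_range.1 hj)
    refine (sum_le_sum h2).trans ?_
    rw [sum_comm]
    exact sum_le_sum fun g _ => hash_wgt_double _ ℓ R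
  refine (sum_le_sum h1).trans (le_of_eq ?_)
  rw [sum_comm]
  refine sum_congr rfl fun g _ => ?_
  rw [sum_const, card_range, nsmul_eq_mul]
  ring

theorem hash_exists (ℓ R : ℕ) (hR : 0 < R) (wt : ℕ → ℕ → ℝ) (hwt : ∀ X Y, 0 ≤ wt X Y) :
    ∃ h : ℕ → ℕ → ℕ, (∀ i p, h i p < R) ∧
      ∑ X ∈ range (2 ^ ℓ), ∑ Y ∈ range (2 ^ ℓ), wt X Y * kap ℓ R h X Y ≤
        (2 * ℓ / R : ℝ) * ∑ X ∈ range (2 ^ ℓ), ∑ Y ∈ range (2 ^ ℓ), wt X Y := by
  have hR' : (0 : ℝ) < R := by exact_mod_cast hR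
  have : NeZero R := ⟨hR.ne'⟩
  have hne : (univ : Finset (Fin ℓ × Fin (2 ^ ℓ) → Fin R)).Nonempty := univ_nonempty
  have hkap : ∀ X ∈ range (2 ^ ℓ), ∀ Y ∈ range (2 ^ ℓ),
      ∑ g : Fin ℓ × Fin (2 ^ ℓ) → Fin R, wt X Y * kap ℓ R (hashH ℓ R g) X Y ≤
        ∑ _g : Fin ℓ × Fin (2 ^ ℓ) → Fin R, wt X Y * (2 * ℓ / R : ℝ) := by
    intro X hX Y hY
    have h1 := hash_kap (R := R) (mem_range.1 hX) (mem_range.1 hY)
    rw [← mul_sum, ← mul_sum]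
    refine mul_le_mul_of_nonneg_left ?_ (hwt X Y)
    rw [sum_const, nsmul_eq_mul] at h1 ⊢
    rw [← mul_div_assoc, le_div_iff₀ hR']
    linarith
  have h : ∑ g : Fin ℓ × Fin (2 ^ ℓ) → Fin R, (∑ X ∈ range (2 ^ ℓ), ∑ Y ∈ range (2 ^ ℓ),
      wt X Y * kap ℓ R (hashH ℓ R g) X Y) ≤
      ∑ _g : Fin ℓ × Fin (2 ^ ℓ) → Fin R,
        ((2 * ℓ / R : ℝ) * ∑ X ∈ range (2 ^ ℓ), ∑ Y ∈ range (2 ^ ℓ), wt X Y) := by
    rw [sum_comm]
    have h2 : ∑ _g : Fin ℓ × Fin (2 ^ ℓ) → Fin R,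
        ((2 * ℓ / R : ℝ) * ∑ X ∈ range (2 ^ ℓ), ∑ Y ∈ range (2 ^ ℓ), wt X Y) =
        ∑ X ∈ range (2 ^ ℓ), ∑ Y ∈ range (2 ^ ℓ),
          ∑ _g : Fin ℓ × Fin (2 ^ ℓ) → Fin R, wt X Y * (2 * ℓ / R : ℝ) := by
      rw [mul_sum, sum_comm]
      refine sum_congr rfl fun X _ => ?_
      rw [mul_sum] 
      rw [sum_comm]
      refine sum_congr rfl fun g _ => sum_congr rfl fun Y _ => ?_
      rw [mul_comm]
    rw [h2]
    refine sum_le_sum fun X hX => ?_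
    rw [sum_comm]
    exact sum_le_sum fun Y hY => hkap X hX Y hY
  obtain ⟨g, -, hg⟩ := exists_le_of_sum_le hne h
  exact ⟨hashH ℓ R g, hashH_lt hR g, hg⟩

end P091
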