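import Vale.Agent.P091.Defs

/-!
# P091 module HUMP: partial sums of the gliding hump series

`f k x = ε k * tp (D k) (c k) (m k • x)`; the `f k` are continuous, `∫ ‖f k‖ ≤ ε k`, `∑ ε k < ∞`,
`m k * D k < m (k + 1)`, `m k > 0`.  `F = ∑' k, f k` is integrable and for `n ≤ D k`, `0 < n`,
`psum (m k * n) F x - psum (m k - 1) F x = ε k * (tp n (c k) (m k • x) - c k 0)`:
`psum N F x = ∑' i, psum N (f i) x` (Fourier coefficients are continuous in `L^1`,
`hasSum_integral_of_summable_integral_norm`), and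
`psum N (fun x => tp D c (m • x)) x = ∑_{|d| ≤ D, m |d| ≤ N} c d * fourier d (m • x)`.
-/

open Finset MeasureTheory

namespace P091

theorem hump_cont (D : ℕ) (c : ℤ → ℂ) : Continuous (tp D c) := by
  unfold tp
  exact continuous_finsetSum _ fun d _ => continuous_const.mul (map_continuous (fourier d))

theorem hump_cont_smul (D m : ℕ) (c : ℤ → ℂ) (ε : ℝ) :
    Continuous fun x : Cir => (ε : ℂ) * tp D c (m • x) :=
  continuous_const.mul ((hump_cont D c).comp (continuous_const_smul m))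

theorem hump_cont_int {f : Cir → ℂ} (hf : Continuous f) :
    Integrable f AddCircle.haarAddCircle :=
  hf.integrable_of_hasCompactSupport (HasCompactSupport.of_compactSpace f)

theorem hump_integral_nsmul {m : ℕ} (hm : 0 < m) {g : Cir → ℝ} (hg : Continuous g) :
    ∫ x : Cir, g (m • x) ∂AddCircle.haarAddCircle = ∫ x : Cir, g x ∂AddCircle.haarAddCircle := by
  have h : MeasurePreserving (fun x : Cir => (m : ℤ) • x) AddCircle.haarAddCircle
      AddCircle.haarAddCircle :=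
    Measure.measurePreserving_zsmul _ (by exact_mod_cast hm.ne')
  have h2 := integral_map (μ := (AddCircle.haarAddCircle : Measure Cir)) h.measurable.aemeasurable
    (f := g) (by rw [h.map_eq]; exact hg.aestronglyMeasurable)
  rw [h.map_eq] at h2
  rw [h2]
  refine integral_congr_ae (Filter.Eventually.of_forall fun x => ?_)
  show g (m • x) = g ((m : ℤ) • x)
  rw [natCast_zsmul]

theorem hump_pack {f : ℕ → Cir → ℂ} {ε : ℕ → ℝ} (hε : ∀ k, 0 ≤ ε k) (hsum : Summable ε)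
    (hc : ∀ k, Continuous (f k))
    (hi : ∀ k, ∫ x : Cir, ‖f k x‖ ∂AddCircle.haarAddCircle ≤ ε k) :
    (∀ᵐ x : Cir ∂AddCircle.haarAddCircle, Summable fun k => ‖f k x‖) ∧
      Integrable (fun x : Cir => ∑' k, f k x) AddCircle.haarAddCircle := by
  have hm : ∀ k, AEMeasurable (fun x => ‖f k x‖ₑ)
      (AddCircle.haarAddCircle : Measure Cir) := fun k =>
    ((hc k).aestronglyMeasurable).enorm
  have hlt : ∫⁻ x : Cir, ∑' k, ‖f k x‖ₑ ∂AddCircle.haarAddCircle < ⊤ := by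
    rw [lintegral_tsum hm]
    have h1 : ∀ k, ∫⁻ x : Cir, ‖f k x‖ₑ ∂AddCircle.haarAddCircle ≤ ENNReal.ofReal (ε k) := by
      intro k
      rw [← ofReal_integral_norm_eq_lintegral_enorm (hump_cont_int (hc k))]
      exact ENNReal.ofReal_le_ofReal (hi k)
    refine lt_of_le_of_lt (ENNReal.tsum_le_tsum h1) ?_
    rw [← ENNReal.ofReal_tsum_of_nonneg hε hsum]
    exact ENNReal.ofReal_lt_top
  have hae : ∀ᵐ x : Cir ∂AddCircle.haarAddCircle, Summable fun k => ‖f k x‖ := by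
    have h1 := ae_lt_top' (AEMeasurable.tsum hm) hlt.ne
    filter_upwards [h1] with x hx using tsum_enorm_ne_top_iff_summable_norm.1 hx.ne
  refine ⟨hae, ?_, ?_⟩
  · refine aestronglyMeasurable_of_tendsto_ae Filter.atTop
      (f := fun (n : ℕ) (x : Cir) => ∑ k ∈ range n, f k x) (fun n => ?_) ?_
    · exact (continuous_finsetSum _ fun k _ => hc k).aestronglyMeasurable
    · filter_upwards [hae] with x hx
      exact hx.of_norm.hasSum.tendsto_sum_nat
  · unfold HasFiniteIntegral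
    refine lt_of_le_of_lt (lintegral_mono fun x => ?_) hlt
    exact enorm_tsum_le_tsum_enorm

theorem hump_int_le {D m : ℕ} {c : ℤ → ℂ} {ε : ℝ} (hε : 0 ≤ ε) (hm : 0 < m)
    (hint : ∫ x : Cir, ‖tp D c x‖ ∂AddCircle.haarAddCircle ≤ 1) :
    ∫ x : Cir, ‖(ε : ℂ) * tp D c (m • x)‖ ∂AddCircle.haarAddCircle ≤ ε := by
  have h1 : ∀ x : Cir, ‖(ε : ℂ) * tp D c (m • x)‖ = ε * ‖tp D c (m • x)‖ := by
    intro x
    rw [norm_mul, Complex.norm_real, Real.norm_eq_abs, abs_of_nonneg hε]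
  simp only [h1]
  rw [integral_const_mul, hump_integral_nsmul hm (g := fun x => ‖tp D c x‖)
    (hump_cont D c).norm]
  calc ε * _ ≤ ε * 1 := mul_le_mul_of_nonneg_left hint hε
    _ = ε := mul_one ε

theorem hump_integrable (D m : ℕ → ℕ) (c : ℕ → ℤ → ℂ) (ε : ℕ → ℝ) (hε : ∀ k, 0 ≤ ε k)
    (hsum : Summable ε) (hm0 : ∀ k, 0 < m k)
    (hint : ∀ k, ∫ x : Cir, ‖tp (D k) (c k) x‖ ∂AddCircle.haarAddCircle ≤ 1) :
    (∀ k, ∫ x : Cir, ‖(ε k : ℂ) * tp (D k) (c k) (m k • x)‖ ∂AddCircle.haarAddCircle ≤ ε k) ∧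
    (∀ᵐ x : Cir ∂AddCircle.haarAddCircle,
      Summable fun k => ‖(ε k : ℂ) * tp (D k) (c k) (m k • x)‖) ∧
    Integrable (fun x : Cir => ∑' k, (ε k : ℂ) * tp (D k) (c k) (m k • x))
      AddCircle.haarAddCircle := by
  have h1 : ∀ k, ∫ x : Cir, ‖(ε k : ℂ) * tp (D k) (c k) (m k • x)‖
      ∂AddCircle.haarAddCircle ≤ ε k := fun k => hump_int_le (hε k) (hm0 k) (hint k)
  exact ⟨h1, hump_pack hε hsum (fun k => hump_cont_smul (D k) (m k) (c k) (ε k)) h1⟩

theorem hump_coeff_tp (D m : ℕ) (c : ℤ → ℂ) (ε : ℝ) (j : ℤ) :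
    fourierCoeff (fun x : Cir => (ε : ℂ) * tp D c (m • x)) j =
      (ε : ℂ) * ∑ d ∈ Icc (-(D : ℤ)) D, if j = m * d then c d else 0 := by
  have h1 : ∀ (d : ℤ) (x : Cir), (fourier d (m • x) : ℂ) = fourier (m * d) x := by
    intro d x
    rw [fourier_apply, fourier_apply]
    congr 2
    rw [← natCast_zsmul, smul_smul, mul_comm d (m : ℤ)]
  have h2 : (fun x : Cir => tp D c (m • x)) =
      ∑ d ∈ Icc (-(D : ℤ)) D, fun x : Cir => c d * fourier (m * d) x := by
    funext x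
    rw [Finset.sum_apply]
    unfold tp
    exact Finset.sum_congr rfl fun d _ => by rw [h1]
  rw [fourierCoeff.const_mul, h2, fourierCoeff.sum]
  · rw [Finset.sum_apply]
    congr 1
    refine Finset.sum_congr rfl fun d _ => ?_
    rw [fourierCoeff.const_mul, fourierCoeff_fourier, Pi.single_apply]
    split_ifs <;> simp
  · intro d _
    exact hump_cont_int (continuous_const.mul (map_continuous (fourier _)))

theorem hump_coeff_small {D m : ℕ} {c : ℤ → ℂ} {ε : ℝ} {j : ℤ} (hj0 : j ≠ 0) (hj : |j| < m) :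
    fourierCoeff (fun x : Cir => (ε : ℂ) * tp D c (m • x)) j = 0 := by
  rw [hump_coeff_tp, Finset.sum_eq_zero, mul_zero]
  intro d _
  rw [if_neg]
  intro h
  have hd : d ≠ 0 := by
    rintro rfl
    exact hj0 (by rw [h, mul_zero])
  have h1 : (1 : ℤ) ≤ |d| := Int.one_le_abs hd
  rw [h, abs_mul, abs_of_nonneg (Int.natCast_nonneg m)] at hj
  nlinarith [Int.natCast_nonneg m]

theorem hump_coeff_large {D m : ℕ} {c : ℤ → ℂ} {ε : ℝ} {j : ℤ} (hj : ((m * D : ℕ) : ℤ) < |j|) :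
    fourierCoeff (fun x : Cir => (ε : ℂ) * tp D c (m • x)) j = 0 := by
  rw [hump_coeff_tp, Finset.sum_eq_zero, mul_zero]
  intro d hd
  rw [if_neg]
  intro h
  rw [Finset.mem_Icc] at hd
  have h1 : |d| ≤ (D : ℤ) := abs_le.mpr hd
  rw [h, abs_mul, abs_of_nonneg (Int.natCast_nonneg m)] at hj
  push_cast at hj
  nlinarith [Int.natCast_nonneg m]

theorem hump_coeff_series {f : ℕ → Cir → ℂ} {ε : ℕ → ℝ} (hsum : Summable ε)
    (hc : ∀ k, Continuous (f k))
    (hi : ∀ k, ∫ x : Cir, ‖f k x‖ ∂AddCircle.haarAddCircle ≤ ε k) (j : ℤ) :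
    fourierCoeff (fun x : Cir => ∑' k, f k x) j = ∑' k, fourierCoeff (f k) j := by
  unfold fourierCoeff
  have h1 : ∀ (k : ℕ) (x : Cir), ‖fourier (-j) x • f k x‖ = ‖f k x‖ := by
    intro k x
    rw [norm_smul, fourier_apply, Circle.norm_coe, one_mul]
  rw [integral_tsum_of_summable_integral_norm]
  · refine integral_congr_ae (Filter.Eventually.of_forall fun x => ?_)
    show fourier (-j) x • ∑' k, f k x = ∑' k, fourier (-j) x • f k x
    simp only [smul_eq_mul]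
    rw [tsum_mul_left]
  · intro k
    exact (hump_cont_int (hc k)).fourier_smul (-j)
  · simp only [h1]
    exact Summable.of_nonneg_of_le (fun k => integral_nonneg fun x => norm_nonneg _) hi hsum

theorem hump_psum (D m : ℕ → ℕ) (c : ℕ → ℤ → ℂ) (ε : ℕ → ℝ) (hε : ∀ k, 0 ≤ ε k)
    (hsum : Summable ε) (hm0 : ∀ k, 0 < m k) (hm : ∀ k, m k * D k < m (k + 1))
    (hD : ∀ k, 0 < D k)
    (hint : ∀ k, ∫ x : Cir, ‖tp (D k) (c k) x‖ ∂AddCircle.haarAddCircle ≤ 1)
    (k n : ℕ) (hn0 : 0 < n) (hn : n ≤ D k) (x : Cir) :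
    psum (m k * n) (fun x : Cir => ∑' k, (ε k : ℂ) * tp (D k) (c k) (m k • x)) x
      - psum (m k - 1) (fun x : Cir => ∑' k, (ε k : ℂ) * tp (D k) (c k) (m k • x)) x
      = (ε k : ℂ) * (tp n (c k) (m k • x) - c k 0) := by
  classical
  have hmono : StrictMono m := strictMono_nat_of_lt_succ fun i =>
    lt_of_le_of_lt (Nat.le_mul_of_pos_right _ (hD i)) (hm i)
  have hF : ∀ j : ℤ, fourierCoeff (fun x : Cir => ∑' k, (ε k : ℂ) * tp (D k) (c k) (m k • x)) j =
      ∑' i, fourierCoeff (fun x : Cir => (ε i : ℂ) * tp (D i) (c i) (m i • x)) j := fun j =>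
    hump_coeff_series hsum (fun k => hump_cont_smul (D k) (m k) (c k) (ε k))
      (fun k => hump_int_le (hε k) (hm0 k) (hint k)) j
  have hF2 : ∀ j : ℤ, (m k : ℤ) ≤ |j| → |j| ≤ ((m k * n : ℕ) : ℤ) →
      fourierCoeff (fun x : Cir => ∑' k, (ε k : ℂ) * tp (D k) (c k) (m k • x)) j =
        (ε k : ℂ) * ∑ d ∈ Icc (-(D k : ℤ)) (D k), if j = m k * d then c k d else 0 := by
    intro j hj1 hj2
    rw [hF j, tsum_eq_single k, hump_coeff_tp]
    intro i hi
    rcases lt_or_gt_of_ne hi with h | h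
    · apply hump_coeff_large
      have h1 : m i * D i < m k := lt_of_lt_of_le (hm i) (hmono.monotone h)
      have h2 : ((m i * D i : ℕ) : ℤ) < (m k : ℤ) := by exact_mod_cast h1
      linarith
    · have h1 : m k * n < m i :=
        lt_of_le_of_lt (Nat.mul_le_mul_left _ hn) (lt_of_lt_of_le (hm k) (hmono.monotone h))
      have h2 : ((m k * n : ℕ) : ℤ) < (m i : ℤ) := by exact_mod_cast h1
      have h3 : (0 : ℤ) < m k := by exact_mod_cast hm0 k
      apply hump_coeff_small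
      · intro h0
        rw [h0, abs_zero] at hj1
        linarith
      · linarith
  have hmk1 : ((m k - 1 : ℕ) : ℤ) = (m k : ℤ) - 1 := by
    have := hm0 k
    omega
  have hmn : m k ≤ m k * n := Nat.le_mul_of_pos_right _ hn0
  have hsub : Icc (-((m k - 1 : ℕ) : ℤ)) ((m k - 1 : ℕ) : ℤ) ⊆
      Icc (-((m k * n : ℕ) : ℤ)) ((m k * n : ℕ) : ℤ) := by
    have : ((m k : ℕ) : ℤ) ≤ ((m k * n : ℕ) : ℤ) := by exact_mod_cast hmn
    refine Finset.Icc_subset_Icc ?_ ?_ <;> rw [hmk1] <;> linarith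
  have hS : ∀ j : ℤ, j ∈ Icc (-((m k * n : ℕ) : ℤ)) ((m k * n : ℕ) : ℤ) \
      Icc (-((m k - 1 : ℕ) : ℤ)) ((m k - 1 : ℕ) : ℤ) ↔ (m k : ℤ) ≤ |j| ∧
        |j| ≤ ((m k * n : ℕ) : ℤ) := by
    intro j
    rw [Finset.mem_sdiff, Finset.mem_Icc, Finset.mem_Icc, ← abs_le, ← abs_le, hmk1]
    constructor
    · rintro ⟨h1, h2⟩
      exact ⟨by omega, h1⟩
    · rintro ⟨h1, h2⟩
      exact ⟨h2, by omega⟩
  have hpos : (0 : ℤ) < m k := by exact_mod_cast hm0 k
  unfold psum
  rw [← Finset.sum_sdiff hsub, add_sub_cancel_right]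
  have h1 : ∀ j ∈ Icc (-((m k * n : ℕ) : ℤ)) ((m k * n : ℕ) : ℤ) \
      Icc (-((m k - 1 : ℕ) : ℤ)) ((m k - 1 : ℕ) : ℤ),
      fourierCoeff (fun x : Cir => ∑' k, (ε k : ℂ) * tp (D k) (c k) (m k • x)) j *
        fourier j x = ∑ d ∈ Icc (-(D k : ℤ)) (D k),
          if j = m k * d then (ε k : ℂ) * (c k d * fourier (m k * d) x) else 0 := by
    intro j hj
    rw [hS] at hj
    rw [hF2 j hj.1 hj.2, Finset.mul_sum, Finset.sum_mul]
    refine Finset.sum_congr rfl fun d _ => ?_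
    split_ifs with h
    · rw [h]; ring
    · simp
  rw [Finset.sum_congr rfl h1, Finset.sum_comm]
  have h2 : ∀ d ∈ Icc (-(D k : ℤ)) (D k),
      (∑ j ∈ Icc (-((m k * n : ℕ) : ℤ)) ((m k * n : ℕ) : ℤ) \
        Icc (-((m k - 1 : ℕ) : ℤ)) ((m k - 1 : ℕ) : ℤ),
        if j = m k * d then (ε k : ℂ) * (c k d * fourier (m k * d) x) else 0) =
      if d ∈ (Icc (-(n : ℤ)) n).erase 0 then (ε k : ℂ) * (c k d * fourier (m k * d) x) else 0 := by
    intro d _
    rw [Finset.sum_ite_eq']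
    have h3 : ((m k : ℤ) * d ∈ Icc (-((m k * n : ℕ) : ℤ)) ((m k * n : ℕ) : ℤ) \
        Icc (-((m k - 1 : ℕ) : ℤ)) ((m k - 1 : ℕ) : ℤ)) ↔ d ∈ (Icc (-(n : ℤ)) n).erase 0 := by
      rw [hS, Finset.mem_erase, Finset.mem_Icc, ← abs_le, abs_mul,
        abs_of_nonneg (Int.natCast_nonneg (m k))]
      push_cast
      constructor
      · rintro ⟨h4, h5⟩
        refine ⟨?_, le_of_mul_le_mul_left h5 hpos⟩
        rintro rfl
        rw [abs_zero, mul_zero] at h4
        linarith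
      · rintro ⟨h4, h5⟩
        refine ⟨?_, mul_le_mul_of_nonneg_left h5 hpos.le⟩
        have : (1 : ℤ) ≤ |d| := Int.one_le_abs h4
        nlinarith
    simp only [h3]
  rw [Finset.sum_congr rfl h2, ← Finset.sum_filter]
  have h5 : (Icc (-(D k : ℤ)) (D k)).filter (· ∈ (Icc (-(n : ℤ)) n).erase 0) =
      (Icc (-(n : ℤ)) n).erase 0 := by
    have hn' : (n : ℤ) ≤ D k := by exact_mod_cast hn
    ext d
    simp only [Finset.mem_filter, Finset.mem_erase, Finset.mem_Icc]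
    constructor
    · rintro ⟨_, h⟩; exact h
    · rintro ⟨h6, h7, h8⟩
      exact ⟨⟨by linarith, by linarith⟩, h6, h7, h8⟩
  rw [h5, ← Finset.mul_sum]
  congr 1
  have h0 : (0 : ℤ) ∈ Icc (-(n : ℤ)) n := by
    rw [Finset.mem_Icc]
    omega
  have h6 : tp n (c k) (m k • x) = ∑ d ∈ Icc (-(n : ℤ)) n, c k d * fourier (m k * d) x := by
    unfold tp
    refine Finset.sum_congr rfl fun d _ => ?_
    congr 1
    rw [fourier_apply, fourier_apply]
    congr 2
    rw [← natCast_zsmul, smul_smul, mul_comm d (m k : ℤ)]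
  rw [h6, ← Finset.add_sum_erase _ _ h0, mul_zero, fourier_zero, mul_one, add_sub_cancel_left]

/-- The zeroth coefficient is bounded by the `L^1` norm. -/
theorem coeff_zero_le (D : ℕ) (c : ℤ → ℂ)
    (hint : ∫ x : Cir, ‖tp D c x‖ ∂AddCircle.haarAddCircle ≤ 1) : ‖c 0‖ ≤ 1 := by
  have h := hump_coeff_tp D 1 c 1 0
  have h1 : (fun x : Cir => ((1 : ℝ) : ℂ) * tp D c (1 • x)) = tp D c := by
    funext x
    rw [one_smul, Complex.ofReal_one, one_mul]
  have h2 : (∑ d ∈ Icc (-(D : ℤ)) D, if (0 : ℤ) = ((1 : ℕ) : ℤ) * d then c d else 0) = c 0 := by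
    rw [Finset.sum_eq_single 0]
    · simp
    · intro d _ hd
      rw [if_neg]
      intro h
      apply hd
      simpa using h.symm
    · intro h0
      exact absurd (Finset.mem_Icc.mpr ⟨by omega, by omega⟩) h0
  rw [h1, h2, Complex.ofReal_one, one_mul] at h
  rw [← h]
  unfold fourierCoeff
  refine le_trans (norm_integral_le_integral_norm _) (le_trans (le_of_eq ?_) hint)
  refine integral_congr_ae (Filter.Eventually.of_forall fun x => ?_)
  show ‖fourier (-0) x • tp D c x‖ = ‖tp D c x‖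
  rw [norm_smul, fourier_apply, Circle.norm_coe, one_mul]

end P091
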