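import Vale.Agent.P091.Phi

/-!
# P091 module INTEG: integrability of `φ ‖F‖`

Abstract measure space version.  `F = ∑' k, f k` a.e. absolutely summable,
`2 ^ (k+1) ‖f k x‖ ≤ B k` everywhere, `φ v ≤ A k * v` for `1 ≤ v ≤ B k`, and
`∑ A k * 2 ^ (k+1) * ∫ ‖f k‖ < ∞`.  Pointwise: if `v = ‖F x‖ > 1` then, as `∑ 2 ^ (-(k+1)) = 1`,
some `k` has `‖f k x‖ ≥ 2 ^ (-(k+1)) v`; with `w = 2 ^ (k+1) ‖f k x‖ ≥ v > 1`,
`φ v ≤ φ w ≤ A k * w`.  So `φ ‖F x‖ ≤ φ 1 + ∑ k, A k * 2 ^ (k+1) * ‖f k x‖`, which is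
integrable (Tonelli).
-/

open MeasureTheory

namespace P091

private theorem integ_half_sum (v : ℝ) : HasSum (fun k : ℕ => v * (1 / 2) ^ (k + 1)) v := by
  have h := hasSum_geometric_two.mul_left (v * (1 / 2))
  have e : (fun k : ℕ => v * (1 / 2) ^ (k + 1)) = fun k : ℕ => v * (1 / 2) * (1 / 2) ^ k := by
    funext k
    rw [pow_succ]
    ring
  rw [e]
  rw [show v * (1 / 2) * 2 = v by ring] at h
  exact h

private theorem integ_exists_big (a : ℕ → ℂ) (ha : Summable fun k => ‖a k‖)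
    (_hv : 0 < ‖∑' k, a k‖) : ∃ k, ‖∑' k, a k‖ ≤ 2 ^ (k + 1) * ‖a k‖ := by
  by_contra hcon
  push Not at hcon
  have h1 : ‖∑' k, a k‖ ≤ ∑' k, ‖a k‖ := norm_tsum_le_tsum_norm ha
  have hS := integ_half_sum ‖∑' k, a k‖
  have hlt : ∀ k, ‖a k‖ < ‖∑' k, a k‖ * (1 / 2) ^ (k + 1) := by
    intro k
    have h2 := hcon k
    have hp : (0 : ℝ) < 2 ^ (k + 1) := by positivity
    have e : ‖∑' k, a k‖ * (1 / 2) ^ (k + 1) = ‖∑' k, a k‖ / 2 ^ (k + 1) := by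
      rw [div_pow, one_pow]
      ring
    rw [e, lt_div_iff₀ hp]
    linarith
  have h3 : ∑' k, ‖a k‖ < ∑' k, ‖∑' k, a k‖ * (1 / 2) ^ (k + 1) :=
    Summable.tsum_lt_tsum (i := 0) (fun k => (hlt k).le) (hlt 0) ha hS.summable
  rw [hS.tsum_eq] at h3
  linarith

theorem phi_integrable {Ω : Type*} [MeasurableSpace Ω] (μ : Measure Ω) [IsFiniteMeasure μ]
    (φ : ℝ → ℝ) (hmono : MonotoneOn φ (Set.Ici 0)) (hnn : ∀ u, 0 ≤ u → 0 ≤ φ u)
    (f : ℕ → Ω → ℂ) (hf : ∀ k, Integrable (f k) μ) (A B : ℕ → ℝ) (hA : ∀ k, 0 ≤ A k)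
    (hB : ∀ k x, 2 ^ (k + 1) * ‖f k x‖ ≤ B k)
    (hφ : ∀ k, ∀ v : ℝ, 1 ≤ v → v ≤ B k → φ v ≤ A k * v)
    (hs : Summable fun k => A k * 2 ^ (k + 1) * ∫ x, ‖f k x‖ ∂μ)
    (hF : ∀ᵐ x ∂μ, Summable fun k => ‖f k x‖)
    (hFm : AEStronglyMeasurable (fun x => ∑' k, f k x) μ) :
    Integrable (fun x => φ ‖∑' k, f k x‖) μ := by
  have hmono' : Monotone (fun u : ℝ => φ (max u 0)) := by
    intro a b hab
    exact hmono (Set.mem_Ici.2 (le_max_right _ _)) (Set.mem_Ici.2 (le_max_right _ _))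
      (max_le_max_right 0 hab)
  have hmeas : AEStronglyMeasurable (fun x => φ ‖∑' k, f k x‖) μ := by
    have h1 : AEMeasurable (fun x => ‖∑' k, f k x‖) μ := hFm.norm.aemeasurable
    have h2 : AEMeasurable (fun x => (fun u : ℝ => φ (max u 0)) ‖∑' k, f k x‖) μ :=
      hmono'.measurable.comp_aemeasurable h1
    have h3 : (fun x => (fun u : ℝ => φ (max u 0)) ‖∑' k, f k x‖)
        = fun x => φ ‖∑' k, f k x‖ := by
      funext x
      simp only [max_eq_left (norm_nonneg _)]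
    rw [h3] at h2
    exact h2.aestronglyMeasurable
  refine ⟨hmeas, ?_⟩
  have hpt : ∀ᵐ x ∂μ, ‖φ ‖∑' k, f k x‖‖ₑ ≤
      ENNReal.ofReal (φ 1) + ∑' k, ENNReal.ofReal (A k * 2 ^ (k + 1) * ‖f k x‖) := by
    filter_upwards [hF] with x hx
    rw [Real.enorm_eq_ofReal (hnn _ (norm_nonneg _))]
    by_cases h1 : ‖∑' k, f k x‖ ≤ 1
    · refine le_trans (ENNReal.ofReal_le_ofReal ?_) le_self_add
      exact hmono (Set.mem_Ici.2 (norm_nonneg _)) (Set.mem_Ici.2 zero_le_one) h1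
    · push Not at h1
      obtain ⟨k, hk⟩ := integ_exists_big (fun k => f k x) hx (lt_trans one_pos h1)
      have h2 : φ ‖∑' k, f k x‖ ≤ A k * 2 ^ (k + 1) * ‖f k x‖ := by
        have h3 : φ ‖∑' k, f k x‖ ≤ φ (2 ^ (k + 1) * ‖f k x‖) :=
          hmono (Set.mem_Ici.2 (norm_nonneg _))
            (Set.mem_Ici.2 (le_trans (norm_nonneg _) hk)) hk
        have h4 := hφ k (2 ^ (k + 1) * ‖f k x‖) (le_trans h1.le hk) (hB k x)
        rw [mul_assoc]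
        exact h3.trans h4
      refine le_trans (ENNReal.ofReal_le_ofReal h2) ?_
      refine le_trans ?_ le_add_self
      exact ENNReal.le_tsum (f := fun k => ENNReal.ofReal (A k * 2 ^ (k + 1) * ‖f k x‖)) k
  have hgi : ∀ k, Integrable (fun x => A k * 2 ^ (k + 1) * ‖f k x‖) μ := fun k =>
    (hf k).norm.const_mul _
  have hgn : ∀ k x, 0 ≤ A k * 2 ^ (k + 1) * ‖f k x‖ := fun k x =>
    mul_nonneg (mul_nonneg (hA k) (by positivity)) (norm_nonneg _)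
  have hint : ∫⁻ x, (ENNReal.ofReal (φ 1) +
      ∑' k, ENNReal.ofReal (A k * 2 ^ (k + 1) * ‖f k x‖)) ∂μ < ⊤ := by
    rw [lintegral_add_left measurable_const, lintegral_const, lintegral_tsum
      (fun k => (hgi k).aemeasurable.ennreal_ofReal)]
    refine ENNReal.add_lt_top.2 ⟨ENNReal.mul_lt_top ENNReal.ofReal_lt_top (measure_lt_top μ _), ?_⟩
    have e : ∀ k, ∫⁻ x, ENNReal.ofReal (A k * 2 ^ (k + 1) * ‖f k x‖) ∂μ =
        ENNReal.ofReal (A k * 2 ^ (k + 1) * ∫ x, ‖f k x‖ ∂μ) := by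
      intro k
      rw [← ofReal_integral_eq_lintegral_ofReal (hgi k) (Filter.Eventually.of_forall (hgn k)),
        integral_const_mul]
    simp only [e]
    have hnn2 : ∀ k, 0 ≤ A k * 2 ^ (k + 1) * ∫ x, ‖f k x‖ ∂μ := fun k =>
      mul_nonneg (mul_nonneg (hA k) (by positivity)) (integral_nonneg fun x => norm_nonneg _)
    rw [← ENNReal.ofReal_tsum_of_nonneg hnn2 hs]
    exact ENNReal.ofReal_lt_top
  exact lt_of_le_of_lt (lintegral_mono_ae hpt) hint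

end P091
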