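import Vale.Agent.P091.Defs

/-!
# P091 module ZERO: zero-one law for the limsup set

`A k = {x | m k • x ∈ E k}` has measure `≥ c` (the map `x ↦ m k • x` preserves Haar measure,
see `AddCircle.ergodic_nsmul` or `MeasureTheory.measurePreserving_...`), so
`S = limsup A k = {x | ∃ᶠ k, m k • x ∈ E k}` has measure `≥ c > 0`; as `2 ^ k ∣ m k`, `S` is
invariant under the rotation by `2π / 2 ^ i` (order `2 ^ i`) for every `i`, so by
`AddCircle.ae_empty_or_univ_of_forall_vadd_ae_eq_self` it has full measure.
-/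

open Filter MeasureTheory
open scoped Pointwise

namespace P091

private theorem zero_pre (m : ℕ) (hm : 0 < m) (E : Set Cir) (hE : MeasurableSet E) :
    AddCircle.haarAddCircle {x : Cir | m • x ∈ E} = AddCircle.haarAddCircle E := by
  have h : MeasurePreserving (fun x : Cir => (m : ℤ) • x) AddCircle.haarAddCircle
      AddCircle.haarAddCircle :=
    Measure.measurePreserving_zsmul _ (by exact_mod_cast hm.ne')
  have h2 := h.measure_preimage hE.nullMeasurableSet
  rw [← h2]
  congr 1

theorem limsup_full (m : ℕ → ℕ) (hm : ∀ k, 2 ^ k ∣ m k) (hm0 : ∀ k, 0 < m k)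
    (E : ℕ → Set Cir) (hE : ∀ k, MeasurableSet (E k))
    (h : ∀ k, ENNReal.ofReal (1 / 16) ≤ AddCircle.haarAddCircle (E k)) :
    ∀ᵐ x : Cir ∂AddCircle.haarAddCircle, ∃ᶠ k in atTop, m k • x ∈ E k := by
  set A : ℕ → Set Cir := fun k => {x | m k • x ∈ E k} with hA
  have hAm : ∀ k, MeasurableSet (A k) := fun k =>
    (continuous_const_smul (m k)).measurable (hE k)
  set B : ℕ → Set Cir := fun n => ⋃ k ∈ Set.Ici n, A k with hB
  have hBm : ∀ n, MeasurableSet (B n) := fun n =>
    MeasurableSet.biUnion (Set.to_countable _) fun k _ => hAm k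
  set S : Set Cir := ⋂ n, B n with hS
  have hSiff : ∀ x, x ∈ S ↔ ∃ᶠ k in atTop, m k • x ∈ E k := by
    intro x
    simp only [hS, hB, hA, Set.mem_iInter, Set.mem_iUnion, Set.mem_Ici, Set.mem_ofPred_eq,
      frequently_atTop, exists_prop]
  have hSm : MeasurableSet S := MeasurableSet.iInter hBm
  have hlow : ENNReal.ofReal (1 / 16) ≤ AddCircle.haarAddCircle S := by
    have ht : Tendsto (fun n => AddCircle.haarAddCircle (B n)) atTop
        (nhds (AddCircle.haarAddCircle S)) := by
      refine tendsto_measure_iInter_atTop (fun n => (hBm n).nullMeasurableSet) ?_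
        ⟨0, measure_ne_top _ _⟩
      intro a b hab x hx
      simp only [hB, Set.mem_iUnion, Set.mem_Ici] at hx ⊢
      obtain ⟨k, hk, hx⟩ := hx
      exact ⟨k, hab.trans hk, hx⟩
    refine ge_of_tendsto' ht fun n => ?_
    refine (h n).trans ?_
    rw [← zero_pre (m n) (hm0 n) (E n) (hE n)]
    exact measure_mono fun x hx => Set.mem_biUnion (Set.mem_Ici.2 le_rfl) hx
  have hvol := AddCircle.volume_eq_smul_haarAddCircle (T := 2 * Real.pi)
  have h0 : ENNReal.ofReal (2 * Real.pi) ≠ 0 := by
    simp [Real.pi_pos]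
  set u : ℕ → Cir := fun i => ((2 * Real.pi / ((2 ^ i : ℕ) : ℝ) : ℝ) : Cir) with hu
  have hord : ∀ i, addOrderOf (u i) = 2 ^ i := fun i =>
    AddCircle.addOrderOf_period_div (by positivity)
  have hinv : ∀ i, (u i +ᵥ S : Set Cir) =ᵐ[volume] S := by
    intro i
    have key : (u i +ᵥ S : Set Cir) = S := by
      ext x
      rw [Set.mem_vadd_set_iff_neg_vadd_mem, hSiff, hSiff]
      refine frequently_congr ?_
      filter_upwards [eventually_ge_atTop i] with k hk
      have h1 : m k • u i = 0 := by
        rw [← addOrderOf_dvd_iff_nsmul_eq_zero, hord]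
        exact (pow_dvd_pow 2 hk).trans (hm k)
      rw [vadd_eq_add, nsmul_add, neg_nsmul, h1, neg_zero, zero_add]
    rw [key]
    exact Filter.EventuallyEq.rfl
  have hres := AddCircle.ae_empty_or_univ_of_forall_vadd_ae_eq_self (T := 2 * Real.pi)
    (s := S) hSm.nullMeasurableSet (l := atTop) (u := u) hinv (by
      have : (addOrderOf ∘ u) = fun i => 2 ^ i := funext hord
      rw [this]
      exact tendsto_pow_atTop_atTop_of_one_lt (by norm_num))
  rcases hres with hr | hr
  · exfalso
    rw [ae_eq_empty, hvol, Measure.smul_apply, smul_eq_mul, mul_eq_zero] at hr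
    rcases hr with hr | hr
    · exact h0 hr
    · rw [hr] at hlow
      have : (0 : ENNReal) < ENNReal.ofReal (1 / 16) := ENNReal.ofReal_pos.2 (by norm_num)
      exact absurd hlow (not_le.2 this)
  · have h1 : ∀ᵐ x : Cir ∂volume, x ∈ S := by
      filter_upwards [hr] with x hx
      have : (x ∈ S) = (x ∈ (Set.univ : Set Cir)) := hx
      rw [this]; trivial
    rw [hvol, ae_iff, Measure.smul_apply, smul_eq_mul, mul_eq_zero, or_iff_right h0, ← ae_iff] at h1
    filter_upwards [h1] with x hx
    exact (hSiff x).1 hx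

end P091
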