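import Vale.Agent.P091.Fin
import Vale.Agent.P091.Hump
import Vale.Agent.P091.Zero
import Vale.Agent.P091.Integ

/-!
# P091 module MAIN: the theorem
-/

open Finset MeasureTheory Filter Asymptotics

namespace P091

/-- The dilation factors. -/
def mseq (D : ℕ → ℕ) : ℕ → ℕ
  | 0 => 1
  | k + 1 => 2 * mseq D k * (D k + 1)

theorem mseq_pos (D : ℕ → ℕ) (k : ℕ) : 0 < mseq D k := by
  induction k with
  | zero => simp [mseq]
  | succ k ih => simp only [mseq]; positivity

theorem mseq_lt (D : ℕ → ℕ) (k : ℕ) : mseq D k * D k < mseq D (k + 1) := by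
  have h := mseq_pos D k
  simp only [mseq]
  nlinarith

theorem mseq_dvd (D : ℕ → ℕ) (k : ℕ) : 2 ^ k ∣ mseq D k := by
  induction k with
  | zero => simp [mseq]
  | succ k ih =>
    simp only [mseq]
    obtain ⟨r, hr⟩ := ih
    exact ⟨r * (D k + 1), by rw [hr]; ring⟩

theorem tp_continuous (D : ℕ) (c : ℤ → ℂ) : Continuous (tp D c) := by
  unfold tp
  refine continuous_finsetSum _ fun d _ => ?_
  exact continuous_const.mul (fourier d).continuous

theorem main (φ : ℝ → ℝ) (hmono : MonotoneOn φ (Set.Ici 0)) (hnn : ∀ u, 0 ≤ u → 0 ≤ φ u)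
    (ho : φ =o[atTop] fun u => u * Real.sqrt (Real.log u)) :
    ∃ f : Cir → ℂ, Integrable f AddCircle.haarAddCircle ∧
      Integrable (fun x => φ ‖f x‖) AddCircle.haarAddCircle ∧
      ∀ᵐ x : Cir ∂AddCircle.haarAddCircle, ¬ BddAbove (Set.range fun N : ℕ => ‖psum N f x‖) := by
  -- choice of the parameters
  have h1 : ∀ k : ℕ, ∃ L₀ : ℕ, ∀ L : ℕ, L₀ ≤ L → ∀ v : ℝ, 1 ≤ v →
      v ≤ Real.exp (400000 * (L : ℝ) ^ 2) → φ v ≤ (1 / 4 : ℝ) ^ (k + 1) * L * v := fun k =>
    phi_small φ hmono hnn ho 400000 (by norm_num) _ (by positivity)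
  choose L₀ hL₀ using h1
  obtain ⟨L, hL⟩ : ∃ L : ℕ → ℕ, L = fun k => max (L₀ k) (160 * (k + 1) * 2 ^ (k + 1)) := ⟨_, rfl⟩
  have hLa : ∀ k, L₀ k ≤ L k := fun k => by rw [hL]; exact le_max_left _ _
  have hLb : ∀ k, 160 * (k + 1) * 2 ^ (k + 1) ≤ L k := fun k => by rw [hL]; exact le_max_right _ _
  have hLb' : ∀ k, (160 : ℝ) * (k + 1) * 2 ^ (k + 1) ≤ L k := fun k => by
    have := hLb k
    exact_mod_cast this
  have hL160 : ∀ k, (160 : ℝ) ≤ L k := fun k => by
    refine le_trans ?_ (hLb' k)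
    have h1 : (1 : ℝ) ≤ (k : ℝ) + 1 := by have := Nat.cast_nonneg (α := ℝ) k; linarith
    have h2 : (1 : ℝ) ≤ 2 ^ (k + 1) := one_le_pow₀ (by norm_num)
    nlinarith [mul_le_mul h1 h2 (by norm_num) (by linarith)]
  have hLpos : ∀ k, (0 : ℝ) < L k := fun k => by linarith [hL160 k]
  have hL1 : ∀ k, 1 ≤ L k := fun k => by
    have := hLpos k
    exact_mod_cast this
  have h2 := fun k => finite_stage (L k) (hL1 k)
  choose D c hD hsup hint E hEm hEh hE using h2
  set m := mseq D with hm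
  obtain ⟨ε, hε⟩ : ∃ ε : ℕ → ℝ, ε = fun k : ℕ => ((k : ℝ) + 1) / L k := ⟨_, rfl⟩
  have hεk : ∀ k, ε k = ((k : ℝ) + 1) / L k := fun k => by rw [hε]
  have hε0 : ∀ k, 0 ≤ ε k := fun k => by
    rw [hεk]
    have := hLpos k
    positivity
  have hεle : ∀ k, ε k * 2 ^ (k + 1) ≤ 1 := fun k => by
    rw [hεk, div_mul_eq_mul_div, div_le_one (hLpos k)]
    have := hLb' k
    have h3 : (0 : ℝ) ≤ ((k : ℝ) + 1) * 2 ^ (k + 1) := by positivity
    nlinarith
  have hεsum : Summable ε := by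
    refine Summable.of_nonneg_of_le hε0 (fun k => ?_) (summable_geometric_two)
    have h3 := hεle k
    rw [one_div_pow, le_div_iff₀ (by positivity)]
    calc ε k * 2 ^ k ≤ ε k * 2 ^ (k + 1) := by
          refine mul_le_mul_of_nonneg_left ?_ (hε0 k)
          exact pow_le_pow_right₀ (by norm_num) (Nat.le_succ k)
      _ ≤ 1 := h3
  obtain ⟨hI1, hI2, hI3⟩ := hump_integrable D m c ε hε0 hεsum (mseq_pos D) hint
  refine ⟨fun x => ∑' k, (ε k : ℂ) * tp (D k) (c k) (m k • x), hI3, ?_, ?_⟩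
  · refine phi_integrable AddCircle.haarAddCircle φ hmono hnn
      (fun k x => (ε k : ℂ) * tp (D k) (c k) (m k • x)) (fun k => ?_)
      (fun k => (1 / 4 : ℝ) ^ (k + 1) * L k) (fun k => Real.exp (400000 * (L k : ℝ) ^ 2))
      (fun k => by positivity) (fun k x => ?_) (fun k v hv1 hv2 => hL₀ k (L k) (hLa k) v hv1 hv2)
      ?_ hI2 hI3.aestronglyMeasurable
    · have hc : Continuous fun x : Cir => (ε k : ℂ) * tp (D k) (c k) (m k • x) :=
        continuous_const.mul ((tp_continuous _ _).comp (continuous_nsmul _))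
      exact hc.integrable_of_hasCompactSupport (HasCompactSupport.of_compactSpace _)
    · rw [norm_mul, Complex.norm_real, Real.norm_of_nonneg (hε0 k), ← mul_assoc,
        mul_comm ((2 : ℝ) ^ (k + 1)) (ε k)]
      calc ε k * 2 ^ (k + 1) * ‖tp (D k) (c k) (m k • x)‖
          ≤ 1 * ‖tp (D k) (c k) (m k • x)‖ :=
            mul_le_mul_of_nonneg_right (hεle k) (norm_nonneg _)
        _ ≤ Real.exp (400000 * (L k : ℝ) ^ 2) := by rw [one_mul]; exact hsup k _
    · have hs : Summable fun k : ℕ => ((k : ℝ) + 1) * (1 / 2 : ℝ) ^ (k + 1) := by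
        have h3 : Summable fun k : ℕ => ((k : ℝ)) * (1 / 2 : ℝ) ^ k := by
          have := summable_pow_mul_geometric_of_norm_lt_one (R := ℝ) 1 (r := (1 / 2 : ℝ))
            (by norm_num)
          simpa using this
        have h4 := (summable_nat_add_iff (f := fun k : ℕ => ((k : ℝ)) * (1 / 2 : ℝ) ^ k) 1).2 h3
        refine h4.congr fun k => ?_
        push_cast
        ring
      refine Summable.of_nonneg_of_le (fun k => ?_) (fun k => ?_) hs
      · have := integral_nonneg (μ := AddCircle.haarAddCircle)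
          (f := fun x : Cir => ‖(ε k : ℂ) * tp (D k) (c k) (m k • x)‖)
          (fun x => norm_nonneg _)
        exact mul_nonneg (by positivity) this
      · calc (1 / 4 : ℝ) ^ (k + 1) * L k * 2 ^ (k + 1) *
              ∫ x : Cir, ‖(ε k : ℂ) * tp (D k) (c k) (m k • x)‖ ∂AddCircle.haarAddCircle
            ≤ (1 / 4 : ℝ) ^ (k + 1) * L k * 2 ^ (k + 1) * ε k :=
              mul_le_mul_of_nonneg_left (hI1 k) (by positivity)
          _ = ((k : ℝ) + 1) * (1 / 2 : ℝ) ^ (k + 1) := by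
              rw [hεk]
              have h5 := (hLpos k).ne'
              have h6 : (1 / 4 : ℝ) ^ (k + 1) * 2 ^ (k + 1) = (1 / 2 : ℝ) ^ (k + 1) := by
                rw [← mul_pow]
                norm_num
              calc (1 / 4 : ℝ) ^ (k + 1) * L k * 2 ^ (k + 1) * (((k : ℝ) + 1) / L k)
                  = (((k : ℝ) + 1) * ((1 / 4 : ℝ) ^ (k + 1) * 2 ^ (k + 1))) *
                      ((L k : ℝ) / L k) := by ring
                _ = _ := by rw [div_self h5, h6, mul_one]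
  · have hfull := limsup_full m (mseq_dvd D) (mseq_pos D) E hEm hEh
    filter_upwards [hfull] with x hx
    rintro ⟨B, hB⟩
    have hB' : ∀ N : ℕ, ‖psum N (fun x : Cir => ∑' k, (ε k : ℂ) * tp (D k) (c k) (m k • x)) x‖
        ≤ B := fun N => hB ⟨N, rfl⟩
    -- for infinitely many `k` we get `(k+1)/40 ≤ 2 B`
    obtain ⟨K, hK⟩ := exists_nat_gt (80 * B)
    obtain ⟨k, hk1, hk2⟩ := (frequently_atTop.1 hx) K
    obtain ⟨n, hnD, hn⟩ := hE k _ hk2
    have hc0 : ‖c k 0‖ ≤ 1 := coeff_zero_le (D k) (c k) (hint k)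
    have hn0 : 0 < n := by
      rcases Nat.eq_zero_or_pos n with h0 | h0
      · exfalso
        subst h0
        have h7 : tp 0 (c k) (m k • x) = c k 0 := by
          simp [tp]
        rw [h7] at hn
        have := hL160 k
        linarith
      · exact h0
    have hdiff := hump_psum D m c ε hε0 hεsum (mseq_pos D) (mseq_lt D) hD hint k n hn0 hnD x
    have h8 : ‖(ε k : ℂ) * (tp n (c k) (m k • x) - c k 0)‖ ≤ 2 * B := by
      rw [← hdiff]
      calc _ ≤ _ := norm_sub_le _ _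
        _ ≤ B + B := add_le_add (hB' _) (hB' _)
        _ = 2 * B := by ring
    rw [norm_mul, Complex.norm_real, Real.norm_of_nonneg (hε0 k)] at h8
    have h9 : (L k : ℝ) / 20 - 4 ≤ ‖tp n (c k) (m k • x) - c k 0‖ := by
      have := norm_sub_norm_le (tp n (c k) (m k • x)) (c k 0)
      linarith
    have h10 : ε k * ((L k : ℝ) / 20 - 4) ≤ 2 * B :=
      (mul_le_mul_of_nonneg_left h9 (hε0 k)).trans h8
    have h11 : ((k : ℝ) + 1) / 40 ≤ ε k * ((L k : ℝ) / 20 - 4) := by
      rw [hεk, div_mul_eq_mul_div, div_le_div_iff₀ (by norm_num) (hLpos k)]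
      have h12 := hL160 k
      have h13 : (0 : ℝ) ≤ (k : ℝ) + 1 := by positivity
      nlinarith [mul_nonneg h13 (sub_nonneg.2 h12)]
    have h14 : (K : ℝ) ≤ k := by exact_mod_cast hk1
    have h15 : (0 : ℝ) ≤ B := (norm_nonneg _).trans (hB' 0)
    linarith

end P091
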