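import Vale.Agent.P091.Defs

/-!
# P091 module PHASE: phases at the atoms

For `X, Y < N = 2 ^ ℓ`: `N * mlt X * (2 π Y / N)` and `N * (2 π Y / N)` are in `2 π ℤ`, and
`N * mlt X * del Y = ∑_{i, j} π 2 ^ k / 2 ^ l` over `X_i = 0`, `Y_j = 1` with
`k = idx i X`, `l = idx j Y`.  A term with `l < k` is a multiple of `2 π`; the terms with
`i = j` and equal prefixes have `k = l` and their number is `1` if `X < Y` and `0` otherwise
(induction on `ℓ`: `∑_{i < ℓ} [X_i = 0, Y_i = 1, X / 2^(i+1) = Y / 2^(i+1)]`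
`= if X < Y ∧ X / 2 ^ ℓ = Y / 2 ^ ℓ then 1 else 0`); all remaining terms are `π * wgt k l`.
So `N (mlt X + q) atom Y = 2 π z + π [X < Y] + π kap X Y + q N del Y`, and `N del Y ≤ π / 2 ^ 13`.
-/

open Finset

namespace P091

theorem phase_R_pos {R : ℕ} {h : ℕ → ℕ → ℕ} (hR : ∀ i p, h i p < R) : 1 ≤ R :=
  Nat.one_le_iff_ne_zero.2 fun h0 => by
    have := hR 0 0
    omega

theorem phase_ite (A B D : Prop) (w : ℝ) [Decidable (A ∧ B)] [Decidable (A ∧ B ∧ ¬ D)]
    [Decidable ((A ∧ B) ∧ D)] : (if A ∧ B then w else 0) =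
      (if A ∧ B ∧ ¬ D then w else 0) + if (A ∧ B) ∧ D then w else 0 := by
  by_cases hA : A <;> by_cases hB : B <;> by_cases hD : D <;> simp [hA, hB, hD]

theorem phase_pair (k l : ℕ) : ∃ z : ℤ,
    Real.pi * 2 ^ k / 2 ^ l = 2 * Real.pi * z + Real.pi * wgt k l := by
  rcases le_or_gt k l with h | h
  · refine ⟨0, ?_⟩
    obtain ⟨m, rfl⟩ := Nat.exists_eq_add_of_le h
    unfold wgt
    rw [if_pos h, Nat.add_sub_cancel_left, pow_add, one_div, inv_pow]
    push_cast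
    field_simp
    ring
  · obtain ⟨m, rfl⟩ := Nat.exists_eq_add_of_lt h
    refine ⟨2 ^ m, ?_⟩
    unfold wgt
    rw [if_neg (by omega)]
    have e : (2 : ℝ) ^ (l + m + 1) = 2 ^ l * (2 ^ m * 2) := by ring
    rw [e]
    push_cast
    field_simp
    ring

theorem phase_count (X Y : ℕ) (ℓ : ℕ) :
    (∑ i ∈ range ℓ, if X.testBit i = false ∧ Y.testBit i = true ∧
      X / 2 ^ (i + 1) = Y / 2 ^ (i + 1) then 1 else 0) =
      if X < Y ∧ X / 2 ^ ℓ = Y / 2 ^ ℓ then 1 else 0 := by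
  induction ℓ with
  | zero =>
    rw [Finset.sum_range_zero, pow_zero, Nat.div_one, Nat.div_one, if_neg (by omega)]
  | succ ℓ ih =>
    rw [Finset.sum_range_succ, ih]
    have e1 : X / 2 ^ (ℓ + 1) = X / 2 ^ ℓ / 2 := by rw [pow_succ, Nat.div_div_eq_div_mul]
    have e2 : Y / 2 ^ (ℓ + 1) = Y / 2 ^ ℓ / 2 := by rw [pow_succ, Nat.div_div_eq_div_mul]
    have h1 : X / 2 ^ ℓ < Y / 2 ^ ℓ → X < Y := fun h => by
      by_contra h'
      have := Nat.div_le_div_right (c := 2 ^ ℓ) (not_lt.1 h')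
      omega
    have h2 : Y / 2 ^ ℓ < X / 2 ^ ℓ → Y < X := fun h => by
      by_contra h'
      have := Nat.div_le_div_right (c := 2 ^ ℓ) (not_lt.1 h')
      omega
    rw [e1, e2]
    simp only [Nat.testBit_eq_decide_div_mod_eq, decide_eq_true_eq, decide_eq_false_iff_not]
    generalize X / 2 ^ ℓ = a at h1 h2
    generalize Y / 2 ^ ℓ = b at h1 h2
    split_ifs <;> omega

theorem phase_main (ℓ R : ℕ) (h : ℕ → ℕ → ℕ) (X Y : ℕ) (hX : X < 2 ^ ℓ)
    (hY : Y < 2 ^ ℓ) : ∃ Z : ℤ, (2 : ℝ) ^ ℓ * (mlt ℓ R h X : ℝ) * del ℓ R h Y =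
      2 * Real.pi * Z + Real.pi * (if X < Y then 1 else 0) + Real.pi * kap ℓ R h X Y := by
  choose z hz using phase_pair
  refine ⟨∑ i ∈ range ℓ, ∑ j ∈ range ℓ, if X.testBit i = false ∧ Y.testBit j = true then
    z (idx R h i X) (idx R h j Y) else 0, ?_⟩
  have h1 : (2 : ℝ) ^ ℓ * (mlt ℓ R h X : ℝ) * del ℓ R h Y =
      ∑ i ∈ range ℓ, ∑ j ∈ range ℓ, if X.testBit i = false ∧ Y.testBit j = true then
        Real.pi * 2 ^ idx R h i X / 2 ^ idx R h j Y else 0 := by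
    have e1 : (2 : ℝ) ^ ℓ * (mlt ℓ R h X : ℝ) * del ℓ R h Y =
        (∑ i ∈ range ℓ, if X.testBit i = false then (2 : ℝ) ^ idx R h i X else 0) *
        ∑ j ∈ range ℓ, if Y.testBit j = true then Real.pi / 2 ^ idx R h j Y else 0 := by
      have e2 : del ℓ R h Y = (∑ j ∈ range ℓ, if Y.testBit j = true then
          Real.pi / 2 ^ idx R h j Y else 0) / 2 ^ ℓ := by
        unfold del
        rw [Finset.sum_div]
        refine Finset.sum_congr rfl fun j _ => ?_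
        split_ifs
        · rw [div_div, mul_comm ((2 : ℝ) ^ ℓ)]
        · rw [zero_div]
      rw [e2]
      unfold mlt
      push_cast
      field_simp
    rw [e1, Finset.sum_mul_sum]
    refine Finset.sum_congr rfl fun i _ => Finset.sum_congr rfl fun j _ => ?_
    by_cases hi : X.testBit i = false
    · by_cases hj : Y.testBit j = true
      · rw [if_pos hi, if_pos hj, if_pos ⟨hi, hj⟩]
        ring
      · simp [hj]
    · simp [hi]
  have h2 : ∀ i ∈ range ℓ, (∑ j ∈ range ℓ,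
      if (X.testBit i = false ∧ Y.testBit j = true) ∧
        (i = j ∧ X / 2 ^ (i + 1) = Y / 2 ^ (j + 1)) then
        wgt (idx R h i X) (idx R h j Y) else 0) =
      ((if X.testBit i = false ∧ Y.testBit i = true ∧
      X / 2 ^ (i + 1) = Y / 2 ^ (i + 1) then 1 else 0 : ℕ) : ℝ) := by
    intro i hi
    rw [Finset.sum_eq_single i]
    · by_cases hc : X.testBit i = false ∧ Y.testBit i = true ∧
        X / 2 ^ (i + 1) = Y / 2 ^ (i + 1)
      · rw [if_pos hc, if_pos ⟨⟨hc.1, hc.2.1⟩, rfl, hc.2.2⟩]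
        unfold wgt idx
        rw [hc.2.2, if_pos le_rfl, Nat.sub_self, pow_zero, Nat.cast_one]
      · rw [if_neg hc, if_neg (fun h' => hc ⟨h'.1.1, h'.1.2, h'.2.2⟩), Nat.cast_zero]
    · intro j _ hj
      rw [if_neg (fun h' => hj h'.2.1.symm)]
    · intro h'
      exact absurd hi h'
  have h3 : (∑ i ∈ range ℓ, ∑ j ∈ range ℓ,
      if X.testBit i = false ∧ Y.testBit j = true then wgt (idx R h i X) (idx R h j Y) else 0) =
      kap ℓ R h X Y + if X < Y then 1 else 0 := by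
    have hcnt := phase_count X Y ℓ
    rw [Nat.div_eq_of_lt hX, Nat.div_eq_of_lt hY] at hcnt
    have hcnt' : ((∑ i ∈ range ℓ, if X.testBit i = false ∧ Y.testBit i = true ∧
        X / 2 ^ (i + 1) = Y / 2 ^ (i + 1) then 1 else 0 : ℕ) : ℝ) =
        if X < Y then 1 else 0 := by
      rw [hcnt]
      by_cases hXY : X < Y
      · rw [if_pos hXY, if_pos ⟨hXY, rfl⟩, Nat.cast_one]
      · rw [if_neg hXY, if_neg (fun h' => hXY h'.1), Nat.cast_zero]
    rw [← hcnt', Nat.cast_sum, ← Finset.sum_congr rfl h2]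
    unfold kap
    rw [← Finset.sum_add_distrib]
    refine Finset.sum_congr rfl fun i _ => ?_
    rw [← Finset.sum_add_distrib]
    refine Finset.sum_congr rfl fun j _ => ?_
    exact phase_ite _ _ _ _
  have h4 : (∑ i ∈ range ℓ, ∑ j ∈ range ℓ, if X.testBit i = false ∧ Y.testBit j = true then
        Real.pi * 2 ^ idx R h i X / 2 ^ idx R h j Y else 0) =
      2 * Real.pi * ((∑ i ∈ range ℓ, ∑ j ∈ range ℓ,
        if X.testBit i = false ∧ Y.testBit j = true then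
        z (idx R h i X) (idx R h j Y) else 0 : ℤ) : ℝ) +
      Real.pi * ∑ i ∈ range ℓ, ∑ j ∈ range ℓ,
        if X.testBit i = false ∧ Y.testBit j = true then
        wgt (idx R h i X) (idx R h j Y) else 0 := by
    push_cast
    rw [Finset.mul_sum, Finset.mul_sum, ← Finset.sum_add_distrib]
    refine Finset.sum_congr rfl fun i _ => ?_
    rw [Finset.mul_sum, Finset.mul_sum, ← Finset.sum_add_distrib]
    refine Finset.sum_congr rfl fun j _ => ?_
    split_ifs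
    · exact hz _ _
    · ring
  rw [h1, h4, h3]
  ring

theorem del_nonneg (ℓ R : ℕ) (h : ℕ → ℕ → ℕ) (Y : ℕ) : 0 ≤ del ℓ R h Y := by
  unfold del
  refine Finset.sum_nonneg fun j _ => ?_
  split_ifs
  · positivity
  · exact le_rfl

theorem del_le (ℓ R : ℕ) (h : ℕ → ℕ → ℕ) (hR : ∀ i p, h i p < R) (Y : ℕ) :
    del ℓ R h Y ≤ Real.pi / (2 ^ 13 * 2 ^ ℓ) := by
  have hR1 := phase_R_pos hR
  have h1 : del ℓ R h Y ≤ ∑ j ∈ range ℓ, Real.pi / (2 ^ 14 * 2 ^ ℓ) * (1 / 2 : ℝ) ^ j := by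
    unfold del
    refine Finset.sum_le_sum fun j _ => ?_
    split_ifs
    · have h2 : (2 : ℝ) ^ (14 + j) ≤ 2 ^ idx R h j Y := by
        apply pow_le_pow_right₀ (by norm_num)
        unfold idx
        have := Nat.le_mul_of_pos_left j hR1
        omega
      calc Real.pi / ((2 : ℝ) ^ ℓ * 2 ^ idx R h j Y)
          ≤ Real.pi / ((2 : ℝ) ^ ℓ * 2 ^ (14 + j)) := by
            apply div_le_div_of_nonneg_left Real.pi_pos.le (by positivity)
            exact mul_le_mul_of_nonneg_left h2 (by positivity)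
        _ = Real.pi / (2 ^ 14 * 2 ^ ℓ) * (1 / 2 : ℝ) ^ j := by
            rw [one_div, inv_pow, pow_add]
            field_simp
    · positivity
  refine h1.trans ?_
  rw [← Finset.mul_sum]
  have h3 : ∑ j ∈ range ℓ, (1 / 2 : ℝ) ^ j ≤ 2 := by
    rw [geom_sum_eq (by norm_num)]
    have : (0 : ℝ) ≤ (1 / 2) ^ ℓ := by positivity
    rw [div_le_iff_of_neg (by norm_num)]
    linarith
  calc Real.pi / (2 ^ 14 * 2 ^ ℓ) * ∑ j ∈ range ℓ, (1 / 2 : ℝ) ^ j
      ≤ Real.pi / (2 ^ 14 * 2 ^ ℓ) * 2 := mul_le_mul_of_nonneg_left h3 (by positivity)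
    _ = Real.pi / (2 ^ 13 * 2 ^ ℓ) := by
      field_simp

theorem mlt_lt (ℓ R : ℕ) (h : ℕ → ℕ → ℕ) (hR : ∀ i p, h i p < R) (X : ℕ) :
    mlt ℓ R h X < 2 ^ (14 + R * ℓ) := by
  have hR1 := phase_R_pos hR
  induction ℓ with
  | zero =>
    unfold mlt
    rw [Finset.sum_range_zero]
    positivity
  | succ ℓ ih =>
    have h1 : mlt (ℓ + 1) R h X ≤ mlt ℓ R h X + 2 ^ (14 + R * ℓ + (R - 1)) := by
      unfold mlt
      rw [Finset.sum_range_succ]
      apply Nat.add_le_add_left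
      split_ifs
      · apply Nat.pow_le_pow_right (by norm_num)
        unfold idx
        have := hR ℓ (X / 2 ^ (ℓ + 1))
        omega
      · exact Nat.zero_le _
    have h2 : 2 ^ (14 + R * ℓ) ≤ 2 ^ (14 + R * ℓ + (R - 1)) :=
      Nat.pow_le_pow_right (by norm_num) (by omega)
    have h3 : 2 ^ (14 + R * (ℓ + 1)) = 2 * 2 ^ (14 + R * ℓ + (R - 1)) := by
      rw [← pow_succ']
      congr 1
      have : R * (ℓ + 1) = R * ℓ + R := by ring
      omega
    rw [h3]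
    omega

theorem phase (ℓ R : ℕ) (h : ℕ → ℕ → ℕ) (hR : ∀ i p, h i p < R) (X Y : ℕ) (hX : X < 2 ^ ℓ)
    (hY : Y < 2 ^ ℓ) (q : ℕ) (hq : q ≤ 1) (x : ℝ) :
    |Real.sin (((2 ^ ℓ * (mlt ℓ R h X + q) : ℕ) : ℝ) * (x - atom ℓ R h Y))
        - sgn X Y * Real.sin (((2 ^ ℓ * (mlt ℓ R h X + q) : ℕ) : ℝ) * x)|
      ≤ Real.pi * kap ℓ R h X Y + Real.pi / 2 ^ 13 := by
  obtain ⟨Z, hZ⟩ := phase_main ℓ R h X Y hX hY
  set m := mlt ℓ R h X with hm
  set A := ((2 ^ ℓ * (m + q) : ℕ) : ℝ) * x with hA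
  set ε := Real.pi * kap ℓ R h X Y + q * (2 ^ ℓ * del ℓ R h Y) with hε
  have hkap : 0 ≤ kap ℓ R h X Y := by
    unfold kap wgt
    refine Finset.sum_nonneg fun i _ => Finset.sum_nonneg fun j _ => ?_
    split_ifs <;> positivity
  have hdel := del_nonneg ℓ R h Y
  have hdel2 : 2 ^ ℓ * del ℓ R h Y ≤ Real.pi / 2 ^ 13 := by
    have h1 := mul_le_mul_of_nonneg_left (del_le ℓ R h hR Y)
      (show (0 : ℝ) ≤ 2 ^ ℓ by positivity)
    refine h1.trans (le_of_eq ?_)
    field_simp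
  have hq1 : (q : ℝ) ≤ 1 := by exact_mod_cast hq
  have hq0 : (0 : ℝ) ≤ q := Nat.cast_nonneg q
  have hε0 : 0 ≤ ε := by
    have : 0 ≤ (q : ℝ) * (2 ^ ℓ * del ℓ R h Y) := by positivity
    have h2 : 0 ≤ Real.pi * kap ℓ R h X Y := mul_nonneg Real.pi_pos.le hkap
    linarith
  have hε1 : ε ≤ Real.pi * kap ℓ R h X Y + Real.pi / 2 ^ 13 := by
    have h1 : (q : ℝ) * (2 ^ ℓ * del ℓ R h Y) ≤ 1 * (Real.pi / 2 ^ 13) :=
      mul_le_mul hq1 hdel2 (by positivity) (by norm_num)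
    linarith
  have hexp : ((2 ^ ℓ * (m + q) : ℕ) : ℝ) * (x - atom ℓ R h Y) =
      (A - ε - (if X < Y then Real.pi else 0)) - ((Z + (m + q) * Y : ℤ) : ℝ) * (2 * Real.pi) := by
    rw [hA, hε]
    unfold atom
    push_cast
    have e1 : (2 : ℝ) ^ ℓ * ((m : ℝ) + q) * (2 * Real.pi * Y / 2 ^ ℓ) =
        (m + q) * Y * (2 * Real.pi) := by
      field_simp
    have e2 : (if X < Y then Real.pi else 0) = Real.pi * (if X < Y then 1 else 0) := by
      split_ifs <;> ring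
    rw [e2]
    linear_combination -e1 - hZ
  rw [hexp, Real.sin_sub_int_mul_two_pi]
  have hsin : |Real.sin (A - ε) - Real.sin A| ≤ ε := by
    have h1 := Real.abs_sin_sub_sin_le (A - ε) A
    refine h1.trans (le_of_eq ?_)
    rw [sub_sub_cancel_left, abs_neg, abs_of_nonneg hε0]
  unfold sgn
  split_ifs with hXY
  · rw [Real.sin_sub_pi]
    refine le_trans (le_of_eq ?_) (hsin.trans hε1)
    rw [← abs_neg]
    congr 1
    ring
  · rw [sub_zero, one_mul]
    exact hsin.trans hε1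

end P091
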