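import Vale.Agent.P091.Defs

/-!
# P091 module PHI: growth of `φ`

`φ v ≤ η' v √(log v)` for `v ≥ V`; for `1 ≤ v ≤ V`, `φ v ≤ φ V ≤ η ℓ v` for large `ℓ`; for
`V ≤ v ≤ exp (C ℓ^2)`, `√(log v) ≤ √C ℓ`.
-/

open Filter Asymptotics

namespace P091

theorem phi_small (φ : ℝ → ℝ) (hmono : MonotoneOn φ (Set.Ici 0)) (hnn : ∀ u, 0 ≤ u → 0 ≤ φ u)
    (ho : φ =o[atTop] fun u => u * Real.sqrt (Real.log u)) (C : ℝ) (hC : 0 < C) (η : ℝ)
    (hη : 0 < η) :
    ∃ L₀ : ℕ, ∀ L : ℕ, L₀ ≤ L → ∀ v : ℝ, 1 ≤ v → v ≤ Real.exp (C * (L : ℝ) ^ 2) →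
      φ v ≤ η * L * v := by
  have hsC : 0 < Real.sqrt C := Real.sqrt_pos.2 hC
  have hη' : 0 < η / Real.sqrt C := div_pos hη hsC
  have h1 := (isLittleO_iff.1 ho) hη'
  obtain ⟨V0, hV0⟩ := eventually_atTop.1 h1
  set V : ℝ := max V0 1 with hV
  have hV1 : 1 ≤ V := le_max_right _ _
  obtain ⟨L₀, hL₀⟩ := exists_nat_ge (φ V / η)
  refine ⟨L₀, fun L hL v hv1 hv2 => ?_⟩
  have hLr : φ V / η ≤ (L : ℝ) := hL₀.trans (by exact_mod_cast hL)
  have hL0 : (0 : ℝ) ≤ (L : ℝ) := Nat.cast_nonneg _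
  by_cases hvV : v ≤ V
  · have h2 : φ v ≤ φ V := hmono (Set.mem_Ici.2 (by linarith)) (Set.mem_Ici.2 (by linarith)) hvV
    have h3 : φ V ≤ η * L := by
      rw [div_le_iff₀ hη] at hLr
      linarith
    calc φ v ≤ η * L := h2.trans h3
      _ = η * L * 1 := (mul_one _).symm
      _ ≤ η * L * v := mul_le_mul_of_nonneg_left hv1 (mul_nonneg hη.le hL0)
  · push Not at hvV
    have h2 := hV0 v ((le_max_left _ _).trans hvV.le)
    rw [Real.norm_of_nonneg (hnn v (by linarith)), Real.norm_of_nonneg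
      (mul_nonneg (by linarith) (Real.sqrt_nonneg _))] at h2
    have h3 : Real.log v ≤ C * (L : ℝ) ^ 2 := by
      rw [← Real.log_exp (C * (L : ℝ) ^ 2)]
      exact Real.log_le_log (by linarith) hv2
    have h4 : Real.sqrt (Real.log v) ≤ Real.sqrt C * L := by
      have h5 := Real.sqrt_le_sqrt h3
      rwa [Real.sqrt_mul hC.le, Real.sqrt_sq hL0] at h5
    calc φ v ≤ η / Real.sqrt C * (v * Real.sqrt (Real.log v)) := h2
      _ ≤ η / Real.sqrt C * (v * (Real.sqrt C * L)) := by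
          refine mul_le_mul_of_nonneg_left ?_ hη'.le
          exact mul_le_mul_of_nonneg_left h4 (by linarith)
      _ = η * L * v := by
          field_simp

end P091
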